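import Vale.Agent.P097.Conic

/-!
P097.  Affine arclength calculus along a curve, without reparametrization.
-/

namespace Vale.Agent.P097

/-- zeros of `r` accumulate at `s` from the right -/
def Acc (r : ℝ → ℝ) (s : ℝ) : Prop := ∀ e, 0 < e → ∃ t, s < t ∧ t < s + e ∧ r t = 0

theorem Acc.at {r : ℝ → ℝ} {s : ℝ} (h : Acc r s) (hc : ContinuousAt r s) : r s = 0 := by
  by_contra hne
  have := hc.eventually_ne hne
  obtain ⟨e, he, hh⟩ := Metric.eventually_nhds_iff.mp this
  obtain ⟨t, h1, h2, h3⟩ := h e he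
  exact hh (by rw [Real.dist_eq, abs_of_pos (by linarith)]; linarith) h3

theorem Acc.next {r r1 ph : ℝ → ℝ} {s : ℝ} (h : Acc r s) (hph : ∀ t, 0 < ph t)
    (hr : ∀ t, HasDerivAt r (ph t * r1 t) t) : Acc r1 s := by
  intro e he
  obtain ⟨t, h1, h2, h3⟩ := h e he
  obtain ⟨u, k1, k2, k3⟩ := h (t - s) (by linarith)
  obtain ⟨z, hz, hz0⟩ := exists_hasDerivAt_eq_zero (f := r) (f' := fun t => ph t * r1 t)
    (show u < t by linarith)
    (fun x _ => (hr x).continuousAt.continuousWithinAt) (by rw [h3, k3]) (fun x _ => hr x)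
  refine ⟨z, by linarith [hz.1], by linarith [hz.2], ?_⟩
  exact (mul_eq_zero.mp hz0).resolve_left (hph z).ne'

structure Affine (ph x y X1 X2 Y1 Y2 m : ℝ → ℝ) : Prop where
  pos : ∀ t, 0 < ph t
  hx : ∀ t, HasDerivAt x (ph t * X1 t) t
  hy : ∀ t, HasDerivAt y (ph t * X2 t) t
  hX1 : ∀ t, HasDerivAt X1 (ph t * Y1 t) t
  hX2 : ∀ t, HasDerivAt X2 (ph t * Y2 t) t
  hY1 : ∀ t, HasDerivAt Y1 (ph t * (-(m t * X1 t))) t
  hY2 : ∀ t, HasDerivAt Y2 (ph t * (-(m t * X2 t))) t
  det : ∀ t, X1 t * Y2 t - X2 t * Y1 t = 1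

section
variable {ph x y X1 X2 Y1 Y2 m : ℝ → ℝ} (h : Affine ph x y X1 X2 Y1 Y2 m)
include h

theorem Affine.dA (s t : ℝ) : HasDerivAt (fun t => X1 t * (y t - y s) - X2 t * (x t - x s))
    (ph t * (Y1 t * (y t - y s) - Y2 t * (x t - x s))) t := by
  have k := ((h.hX1 t).mul ((h.hy t).sub_const (y s))).sub
    ((h.hX2 t).mul ((h.hx t).sub_const (x s)))
  exact k.congr_deriv (by ring)

theorem Affine.dB (s t : ℝ) : HasDerivAt (fun t => Y1 t * (y t - y s) - Y2 t * (x t - x s))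
    (ph t * (-(m t * (X1 t * (y t - y s) - X2 t * (x t - x s))) - 1)) t := by
  have k := ((h.hY1 t).mul ((h.hy t).sub_const (y s))).sub
    ((h.hY2 t).mul ((h.hx t).sub_const (x s)))
  exact k.congr_deriv (by linear_combination (-ph t) * h.det t)

theorem Affine.dG (s t : ℝ) : HasDerivAt (fun t => X1 s * (y t - y s) - X2 s * (x t - x s))
    (ph t * (X1 s * X2 t - X2 s * X1 t)) t := by
  have k := (((h.hy t).sub_const (y s)).const_mul (X1 s)).sub
    (((h.hx t).sub_const (x s)).const_mul (X2 s))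
  exact k.congr_deriv (by ring)

theorem Affine.dE (s t : ℝ) : HasDerivAt (fun t => X1 s * X2 t - X2 s * X1 t)
    (ph t * (X1 s * Y2 t - X2 s * Y1 t)) t := by
  have k := ((h.hX2 t).const_mul (X1 s)).sub ((h.hX1 t).const_mul (X2 s))
  exact k.congr_deriv (by ring)

theorem Affine.dF (s t : ℝ) : HasDerivAt (fun t => X1 s * Y2 t - X2 s * Y1 t)
    (ph t * (-(m t * (X1 s * X2 t - X2 s * X1 t)))) t := by
  have k := ((h.hY2 t).const_mul (X1 s)).sub ((h.hY1 t).const_mul (X2 s))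
  exact k.congr_deriv (by ring)

end

/-- The functions `A, B, G, E, F` of `t` for fixed `s`. -/
structure Five (ph A B G E F m : ℝ → ℝ) (s : ℝ) : Prop where
  pos : ∀ t, 0 < ph t
  dA : ∀ t, HasDerivAt A (ph t * B t) t
  dB : ∀ t, HasDerivAt B (ph t * (-(m t * A t) - 1)) t
  dG : ∀ t, HasDerivAt G (ph t * E t) t
  dE : ∀ t, HasDerivAt E (ph t * F t) t
  dF : ∀ t, HasDerivAt F (ph t * (-(m t * E t))) t
  A0 : A s = 0
  B0 : B s = 0
  E0 : E s = 0
  F0 : F s = 1

theorem Affine.five {ph x y X1 X2 Y1 Y2 m : ℝ → ℝ} (h : Affine ph x y X1 X2 Y1 Y2 m) (s : ℝ) :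
    Five ph (fun t => X1 t * (y t - y s) - X2 t * (x t - x s))
      (fun t => Y1 t * (y t - y s) - Y2 t * (x t - x s))
      (fun t => X1 s * (y t - y s) - X2 s * (x t - x s))
      (fun t => X1 s * X2 t - X2 s * X1 t) (fun t => X1 s * Y2 t - X2 s * Y1 t) m s where
  pos := h.pos
  dA := h.dA s
  dB := h.dB s
  dG := h.dG s
  dE := h.dE s
  dF := h.dF s
  A0 := by simp
  B0 := by simp
  E0 := by ring
  F0 := h.det s

theorem Five.stage1 {ph A B G E F m m1 p p1 p2 p3 : ℝ → ℝ} {s : ℝ} (h : Five ph A B G E F m s)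
    (hm : ∀ t, HasDerivAt m (ph t * m1 t) t)
    (hp : ∀ t, HasDerivAt p (ph t * p1 t) t) (hp1 : ∀ t, HasDerivAt p1 (ph t * p2 t) t)
    (hp2 : ∀ t, HasDerivAt p2 (ph t * p3 t) t)
    (hc1 : Continuous m1) (hc3 : Continuous p3)
    (hz : Acc (fun t => p s * G t + p t * A t) s) : p1 s = 0 := by
  have d0 : ∀ t, HasDerivAt (fun t => p s * G t + p t * A t)
      (ph t * (p s * E t + p1 t * A t + p t * B t)) t := fun t =>
    (((h.dG t).const_mul (p s)).add ((hp t).mul (h.dA t))).congr_deriv (by ring)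
  have d1 : ∀ t, HasDerivAt (fun t => p s * E t + p1 t * A t + p t * B t)
      (ph t * (p s * F t + (p2 t - p t * m t) * A t + 2 * p1 t * B t - p t)) t := fun t =>
    ((((h.dE t).const_mul (p s)).add ((hp1 t).mul (h.dA t))).add
      ((hp t).mul (h.dB t))).congr_deriv (by ring)
  have d2 : ∀ t, HasDerivAt (fun t => p s * F t + (p2 t - p t * m t) * A t
      + 2 * p1 t * B t - p t)
      (ph t * (-(p s * (m t * E t)) + (p3 t - p1 t * m t - p t * m1 t) * A t
        + (p2 t - p t * m t) * B t + 2 * p2 t * B t + 2 * p1 t * (-(m t * A t) - 1) - p1 t)) t :=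
    fun t => (((((h.dF t).const_mul (p s)).add (((hp2 t).sub ((hp t).mul (hm t))).mul
      (h.dA t))).add (((hp1 t).const_mul 2).mul (h.dB t))).sub (hp t)).congr_deriv (by
        simp only [Pi.sub_apply, Pi.mul_apply]; ring)
  have z1 := hz.next h.pos d0
  have z2 := z1.next h.pos d1
  have z3 := z2.next h.pos d2
  have cA : Continuous A := continuous_iff_continuousAt.mpr fun t => (h.dA t).continuousAt
  have cB : Continuous B := continuous_iff_continuousAt.mpr fun t => (h.dB t).continuousAt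
  have cE : Continuous E := continuous_iff_continuousAt.mpr fun t => (h.dE t).continuousAt
  have cm : Continuous m := continuous_iff_continuousAt.mpr fun t => (hm t).continuousAt
  have cp : Continuous p := continuous_iff_continuousAt.mpr fun t => (hp t).continuousAt
  have cp1 : Continuous p1 := continuous_iff_continuousAt.mpr fun t => (hp1 t).continuousAt
  have cp2 : Continuous p2 := continuous_iff_continuousAt.mpr fun t => (hp2 t).continuousAt
  have := z3.at (by fun_prop)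
  rw [h.A0, h.B0, h.E0] at this
  linarith

theorem Five.stage2 {ph A B G E F m m1 m2 m3 : ℝ → ℝ} {s : ℝ} (h : Five ph A B G E F m s)
    (hm : ∀ t, HasDerivAt m (ph t * m1 t) t) (hm1 : ∀ t, HasDerivAt m1 (ph t * m2 t) t)
    (hm2 : ∀ t, HasDerivAt m2 (ph t * m3 t) t) (hc3 : Continuous m3)
    (hz : Acc (fun t => G t + A t) s) : m1 s = 0 := by
  have d0 : ∀ t, HasDerivAt (fun t => G t + A t) (ph t * (E t + B t)) t := fun t =>
    ((h.dG t).add (h.dA t)).congr_deriv (by ring)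
  have d1 : ∀ t, HasDerivAt (fun t => E t + B t) (ph t * (F t - m t * A t - 1)) t := fun t =>
    ((h.dE t).add (h.dB t)).congr_deriv (by ring)
  have d2 : ∀ t, HasDerivAt (fun t => F t - m t * A t - 1)
      (ph t * (-(m t * E t) - m1 t * A t - m t * B t)) t := fun t =>
    (((h.dF t).sub ((hm t).mul (h.dA t))).sub_const 1).congr_deriv (by ring)
  have d3 : ∀ t, HasDerivAt (fun t => -(m t * E t) - m1 t * A t - m t * B t)
      (ph t * (-(m1 t * E t) - m t * F t - m2 t * A t - 2 * m1 t * B t + m t ^ 2 * A t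
        + m t)) t := fun t =>
    (((((hm t).mul (h.dE t)).neg).sub ((hm1 t).mul (h.dA t))).sub
      ((hm t).mul (h.dB t))).congr_deriv (by ring)
  have d4 : ∀ t, HasDerivAt (fun t => -(m1 t * E t) - m t * F t - m2 t * A t
      - 2 * m1 t * B t + m t ^ 2 * A t + m t)
      (ph t * (-(m2 t * E t) - m1 t * F t - m1 t * F t + m t ^ 2 * E t - m3 t * A t
        - m2 t * B t - 2 * m2 t * B t + 2 * m1 t * (m t * A t + 1) + 2 * m t * m1 t * A t
        + m t ^ 2 * B t + m1 t)) t := fun t =>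
    (((((((hm1 t).mul (h.dE t)).neg).sub ((hm t).mul (h.dF t))).sub
      ((hm2 t).mul (h.dA t))).sub (((hm1 t).const_mul 2).mul (h.dB t))).add
      (((hm t).pow 2).mul (h.dA t))).add (hm t) |>.congr_deriv (by norm_num; ring)
  have z1 := hz.next h.pos d0
  have z2 := z1.next h.pos d1
  have z3 := z2.next h.pos d2
  have z4 := z3.next h.pos d3
  have z5 := z4.next h.pos d4
  have cA : Continuous A := continuous_iff_continuousAt.mpr fun t => (h.dA t).continuousAt
  have cB : Continuous B := continuous_iff_continuousAt.mpr fun t => (h.dB t).continuousAt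
  have cE : Continuous E := continuous_iff_continuousAt.mpr fun t => (h.dE t).continuousAt
  have cF : Continuous F := continuous_iff_continuousAt.mpr fun t => (h.dF t).continuousAt
  have cm : Continuous m := continuous_iff_continuousAt.mpr fun t => (hm t).continuousAt
  have cm1 : Continuous m1 := continuous_iff_continuousAt.mpr fun t => (hm1 t).continuousAt
  have cm2 : Continuous m2 := continuous_iff_continuousAt.mpr fun t => (hm2 t).continuousAt
  have := z5.at (by fun_prop)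
  rw [h.A0, h.B0, h.E0, h.F0] at this
  linarith

/-- Constant affine curvature: the curve lies on a conic. -/
theorem Affine.conic {ph x y X1 X2 Y1 Y2 m : ℝ → ℝ} (h : Affine ph x y X1 X2 Y1 Y2 m) (k : ℝ)
    (hm : ∀ t, m t = k) :
    ∃ q0 q1 q2 A B C : ℝ, ¬(q0 = 0 ∧ q1 = 0 ∧ q2 = 0 ∧ A = 0 ∧ B = 0 ∧ C = 0) ∧
      ∀ s, q0 + q1 * x s + q2 * y s + A * x s ^ 2 + 2 * B * (x s * y s) + C * y s ^ 2 = 0 := by
  have hconst : ∀ u v s : ℝ,
      ((u - x s) * Y2 s - (v - y s) * Y1 s) ^ 2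
        + k * (X1 s * (v - y s) - X2 s * (u - x s)) ^ 2
        - 2 * (X1 s * (v - y s) - X2 s * (u - x s))
      = ((u - x 0) * Y2 0 - (v - y 0) * Y1 0) ^ 2
        + k * (X1 0 * (v - y 0) - X2 0 * (u - x 0)) ^ 2
        - 2 * (X1 0 * (v - y 0) - X2 0 * (u - x 0)) := by
    intro u v s
    have dα : ∀ s, HasDerivAt (fun s => (u - x s) * Y2 s - (v - y s) * Y1 s)
        (ph s * (k * (X1 s * (v - y s) - X2 s * (u - x s)) - 1)) s := by
      intro s
      have e := (((h.hx s).const_sub u).mul (h.hY2 s)).sub (((h.hy s).const_sub v).mul (h.hY1 s))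
      refine e.congr_deriv ?_
      have := h.det s
      rw [hm s]
      linear_combination (-ph s) * this
    have dβ : ∀ s, HasDerivAt (fun s => X1 s * (v - y s) - X2 s * (u - x s))
        (ph s * (-((u - x s) * Y2 s - (v - y s) * Y1 s))) s := by
      intro s
      have e := ((h.hX1 s).mul ((h.hy s).const_sub v)).sub ((h.hX2 s).mul ((h.hx s).const_sub u))
      exact e.congr_deriv (by ring)
    have hder : ∀ s, HasDerivAt (fun s => ((u - x s) * Y2 s - (v - y s) * Y1 s) ^ 2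
        + k * (X1 s * (v - y s) - X2 s * (u - x s)) ^ 2
        - 2 * (X1 s * (v - y s) - X2 s * (u - x s))) 0 s := by
      intro s
      have e := (((dα s).pow 2).add (((dβ s).pow 2).const_mul k)).sub ((dβ s).const_mul 2)
      exact e.congr_deriv (by norm_num; ring)
    exact is_const_of_deriv_eq_zero (fun s => (hder s).differentiableAt)
      (fun s => (hder s).deriv) s 0
  obtain ⟨a0, ha0⟩ : ∃ z, z = -(x 0) * Y2 0 + y 0 * Y1 0 := ⟨_, rfl⟩
  obtain ⟨b0, hb0⟩ : ∃ z, z = -(X1 0 * y 0) + X2 0 * x 0 := ⟨_, rfl⟩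
  have hpoly : ∀ u v : ℝ, ((u - x 0) * Y2 0 - (v - y 0) * Y1 0) ^ 2
        + k * (X1 0 * (v - y 0) - X2 0 * (u - x 0)) ^ 2
        - 2 * (X1 0 * (v - y 0) - X2 0 * (u - x 0))
      = (a0 ^ 2 + k * b0 ^ 2 - 2 * b0) + (2 * a0 * Y2 0 - 2 * k * b0 * X2 0 + 2 * X2 0) * u
        + (-(2 * a0 * Y1 0) + 2 * k * b0 * X1 0 - 2 * X1 0) * v
        + (Y2 0 ^ 2 + k * X2 0 ^ 2) * u ^ 2
        + 2 * (-(Y1 0 * Y2 0) - k * (X1 0 * X2 0)) * (u * v)
        + (Y1 0 ^ 2 + k * X1 0 ^ 2) * v ^ 2 := by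
    intro u v
    rw [ha0, hb0]
    ring
  refine ⟨a0 ^ 2 + k * b0 ^ 2 - 2 * b0, 2 * a0 * Y2 0 - 2 * k * b0 * X2 0 + 2 * X2 0,
    -(2 * a0 * Y1 0) + 2 * k * b0 * X1 0 - 2 * X1 0, Y2 0 ^ 2 + k * X2 0 ^ 2,
    -(Y1 0 * Y2 0) - k * (X1 0 * X2 0), Y1 0 ^ 2 + k * X1 0 ^ 2, ?_, fun s => ?_⟩
  rotate_left
  · rw [← hpoly (x s) (y s), ← hconst (x s) (y s) s]
    ring
  · rintro ⟨w0, w1, w2, w3, w4, w5⟩
    have := hpoly (x 0 + X1 0) (y 0 + X2 0)
    rw [w0, w1, w2, w3, w4, w5] at this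
    have hd := h.det 0
    have e : ((x 0 + X1 0 - x 0) * Y2 0 - (y 0 + X2 0 - y 0) * Y1 0) ^ 2
        + k * (X1 0 * (y 0 + X2 0 - y 0) - X2 0 * (x 0 + X1 0 - x 0)) ^ 2
        - 2 * (X1 0 * (y 0 + X2 0 - y 0) - X2 0 * (x 0 + X1 0 - x 0)) = 1 := by
      have e1 : (x 0 + X1 0 - x 0) * Y2 0 - (y 0 + X2 0 - y 0) * Y1 0 = 1 := by
        linear_combination hd
      have e2 : X1 0 * (y 0 + X2 0 - y 0) - X2 0 * (x 0 + X1 0 - x 0) = 0 := by ring
      rw [e1, e2]; ring
    rw [e] at this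
    norm_num at this

end Vale.Agent.P097
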