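import Vale.Agent.P097.Aff

/-!
P097.  The coefficient `p` is constant, for a merely continuous profile.
-/

namespace Vale.Agent.P097

open Set Filter Topology

/-- `g t = o((t - s)^k)` as `t → s+` -/
def Lit (g : ℝ → ℝ) (s : ℝ) (k : ℕ) : Prop :=
  ∀ ε, 0 < ε → ∃ d, 0 < d ∧ ∀ t, s < t → t < s + d → |g t| ≤ ε * (t - s) ^ k

theorem Lit.step {g g' : ℝ → ℝ} {s : ℝ} {k : ℕ} (h : Lit g' s k)
    (hg : ∀ t, HasDerivAt g (g' t) t) (h0 : g s = 0) : Lit g s (k + 1) := by
  intro ε hε
  obtain ⟨d, hd, hh⟩ := h ε hε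
  refine ⟨d, hd, fun t h1 h2 => ?_⟩
  obtain ⟨ξ, hξ, hs⟩ := exists_hasDerivAt_eq_slope g g' h1
    (fun x _ => (hg x).continuousAt.continuousWithinAt) (fun x _ => hg x)
  have hpos : 0 < t - s := by linarith
  rw [h0, sub_zero, eq_div_iff hpos.ne'] at hs
  have h3 := hh ξ hξ.1 (by linarith [hξ.2])
  have h4 : (ξ - s) ^ k ≤ (t - s) ^ k :=
    pow_le_pow_left₀ (by linarith [hξ.1]) (by linarith [hξ.2]) k
  rw [← hs, abs_mul, abs_of_pos hpos, pow_succ, ← mul_assoc]
  exact mul_le_mul_of_nonneg_right (h3.trans (mul_le_mul_of_nonneg_left h4 hε.le)) hpos.le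

theorem lit_start {g : ℝ → ℝ} {s : ℝ} (hg : HasDerivAt g 0 s) (h0 : g s = 0) : Lit g s 1 := by
  intro ε hε
  have h1 := Asymptotics.isLittleO_iff.mp (hasDerivAt_iff_isLittleO.mp hg) hε
  obtain ⟨d, hd, hh⟩ := Metric.eventually_nhds_iff.mp h1
  refine ⟨d, hd, fun t h2 h3 => ?_⟩
  have := hh (y := t) (by rw [Real.dist_eq, abs_of_pos (by linarith)]; linarith)
  rw [h0, smul_zero, sub_zero, sub_zero, Real.norm_eq_abs, Real.norm_eq_abs,
    abs_of_pos (show 0 < t - s by linarith)] at this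
  rw [pow_one]
  exact this

theorem Lit.mul {g ph : ℝ → ℝ} {s : ℝ} {k : ℕ} (h : Lit g s k) (hc : ContinuousAt ph s) :
    Lit (fun t => ph t * g t) s k := by
  intro ε hε
  have hM : 0 < |ph s| + 1 := by positivity
  obtain ⟨d, hd, hh⟩ := h (ε / (|ph s| + 1)) (by positivity)
  obtain ⟨d', hd', hh'⟩ := Metric.continuousAt_iff.mp hc 1 one_pos
  refine ⟨min d d', lt_min hd hd', fun t h1 h2 => ?_⟩
  have h3 := hh t h1 (lt_of_lt_of_le h2 (by linarith [min_le_left d d']))
  have h4 := hh' (x := t) (by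
    rw [Real.dist_eq, abs_of_pos (by linarith)]
    linarith [min_le_right d d'])
  rw [Real.dist_eq] at h4
  have h5 : |ph t| ≤ |ph s| + 1 := by
    have := abs_sub_abs_le_abs_sub (ph t) (ph s)
    linarith
  rw [abs_mul]
  have h6 : 0 ≤ (t - s) ^ k := pow_nonneg (by linarith) k
  calc |ph t| * |g t| ≤ (|ph s| + 1) * (ε / (|ph s| + 1) * (t - s) ^ k) :=
        mul_le_mul h5 h3 (abs_nonneg _) hM.le
    _ = ε * (t - s) ^ k := by field_simp

theorem frequently_of {P : ℝ → Prop} {s : ℝ} (h : ∀ e, 0 < e → ∃ t, s < t ∧ t < s + e ∧ P t) :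
    ∃ᶠ z in 𝓝[>] s, P z := by
  rw [frequently_iff]
  intro U hU
  obtain ⟨u, hu, hsub⟩ := mem_nhdsGT_iff_exists_Ioo_subset.mp hU
  have hu' : s < u := hu
  obtain ⟨t, h1, h2, h3⟩ := h (u - s) (by linarith)
  exact ⟨t, hsub ⟨h1, by linarith⟩, h3⟩

theorem const_of_slopes {p : ℝ → ℝ} (hc : Continuous p)
    (h : ∀ s r, 0 < r → ∀ e, 0 < e → ∃ t, s < t ∧ t < s + e ∧ |p t - p s| ≤ r * (t - s)) :
    ∀ a b, p a = p b := by
  have key : ∀ q : ℝ → ℝ, Continuous q →
      (∀ s r, 0 < r → ∀ e, 0 < e → ∃ t, s < t ∧ t < s + e ∧ |q t - q s| ≤ r * (t - s)) →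
      ∀ a b, a ≤ b → q b ≤ q a := by
    intro q hq hh a b hab
    have := image_le_of_liminf_slope_right_le_deriv_boundary (f := q) (a := a) (b := b)
      hq.continuousOn (B := fun _ => q a) (B' := fun _ => 0) le_rfl continuousOn_const
      (fun x _ => hasDerivWithinAt_const _ _ _)
      (fun x _ r hr => frequently_of (fun e he => by
        obtain ⟨t, h1, h2, h3⟩ := hh x (r / 2) (by linarith) e he
        refine ⟨t, h1, h2, ?_⟩
        have hpos : 0 < t - x := by linarith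
        rw [slope_def_field, div_lt_iff₀ hpos]
        have h4 := (abs_le.mp h3).2
        have h5 : r / 2 * (t - x) < r * (t - x) :=
          mul_lt_mul_of_pos_right (by linarith) hpos
        linarith))
    exact this (right_mem_Icc.mpr hab)
  have hp := key p hc h
  have hn := key (fun t => -p t) hc.neg (fun s r hr e he => by
    obtain ⟨t, h1, h2, h3⟩ := h s r hr e he
    refine ⟨t, h1, h2, ?_⟩
    have : -p t - -p s = -(p t - p s) := by ring
    rw [this, abs_neg]
    exact h3)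
  intro a b
  rcases le_total a b with hab | hab
  · have h1 := hp a b hab
    have h2 := hn a b hab
    linarith
  · have h1 := hp b a hab
    have h2 := hn b a hab
    linarith

/-- Near `s` the two triangle areas agree up to third order. -/
theorem Five.slope {ph A B G E F m m1 p : ℝ → ℝ} {s ph' : ℝ} (h : Five ph A B G E F m s)
    (hph : HasDerivAt ph ph' s) (hG0 : G s = 0)
    (hm : ∀ t, HasDerivAt m (ph t * m1 t) t)
    (hz : Acc (fun t => p s * G t + p t * A t) s) (r : ℝ) (hr : 0 < r) (e : ℝ)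
    (he : 0 < e) : ∃ t, s < t ∧ t < s + e ∧ |p t - p s| ≤ r * (t - s) := by
  -- K = G + A is o((t-s)^3)
  have d0 : ∀ t, HasDerivAt (fun t => G t + A t) (ph t * (E t + B t)) t := fun t =>
    ((h.dG t).add (h.dA t)).congr_deriv (by ring)
  have d1 : ∀ t, HasDerivAt (fun t => E t + B t) (ph t * (F t - m t * A t - 1)) t := fun t =>
    ((h.dE t).add (h.dB t)).congr_deriv (by ring)
  have d2 : ∀ t, HasDerivAt (fun t => F t - m t * A t - 1)
      (ph t * (-(m t * E t) - m1 t * A t - m t * B t)) t := fun t =>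
    (((h.dF t).sub ((hm t).mul (h.dA t))).sub_const 1).congr_deriv (by ring)
  have l1 : Lit (fun t => ph t * (F t - m t * A t - 1)) s 1 := by
    apply lit_start
    · refine (hph.mul (d2 s)).congr_deriv ?_
      rw [h.A0, h.B0, h.E0, h.F0]; ring
    · rw [h.A0, h.F0]; ring
  have l2 : Lit (fun t => E t + B t) s 2 := l1.step d1 (by simp only [h.E0, h.B0, add_zero])
  have l3 : Lit (fun t => G t + A t) s 3 :=
    (l2.mul hph.continuousAt).step d0 (by simp only [hG0, h.A0, add_zero])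
  -- A is about -(ph s)^2 (t - s)^2 / 2
  have g1 : Lit (fun t => ph t * B t + ph s ^ 2 * (t - s)) s 1 := by
    apply lit_start
    · have k := (hph.mul (h.dB s)).add (((hasDerivAt_id s).sub_const s).const_mul (ph s ^ 2))
      refine k.congr_deriv ?_
      rw [h.A0, h.B0]; ring
    · simp only [h.B0, sub_self, mul_zero, add_zero]
  have g2 : Lit (fun t => A t + ph s ^ 2 / 2 * (t - s) ^ 2) s 2 := by
    refine g1.step (fun t => ?_) (by simp [h.A0])
    have k := (h.dA t).add ((((hasDerivAt_id t).sub_const s).pow 2).const_mul (ph s ^ 2 / 2))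
    exact k.congr_deriv (by norm_num; ring)
  have hps := h.pos s
  obtain ⟨d2', hd2, hA⟩ := g2 (ph s ^ 2 / 4) (by positivity)
  obtain ⟨ε, hε⟩ : ∃ ε, ε = r * (ph s ^ 2 / 4) / (|p s| + 1) := ⟨_, rfl⟩
  have hε0 : 0 < ε := by rw [hε]; positivity
  obtain ⟨d3, hd3, hK⟩ := l3 ε hε0
  obtain ⟨t, h1, h2, h3⟩ := hz (min e (min d2' d3)) (lt_min he (lt_min hd2 hd3))
  have m1' := min_le_left e (min d2' d3)
  have m2' := (min_le_right e (min d2' d3)).trans (min_le_left d2' d3)
  have m3' := (min_le_right e (min d2' d3)).trans (min_le_right d2' d3)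
  refine ⟨t, h1, by linarith, ?_⟩
  have a1 := (abs_le.mp (hA t h1 (by linarith))).2
  have k1 := hK t h1 (by linarith)
  simp only at h3
  have hpos : 0 < t - s := by linarith
  obtain ⟨q, hq⟩ : ∃ q, q = ph s ^ 2 / 4 * (t - s) ^ 2 := ⟨_, rfl⟩
  have hqpos : 0 < q := by rw [hq]; positivity
  have hAq : q ≤ -A t := by
    rw [hq]
    have : ph s ^ 2 / 2 * (t - s) ^ 2 = ph s ^ 2 / 4 * (t - s) ^ 2
      + ph s ^ 2 / 4 * (t - s) ^ 2 := by ring
    linarith
  have e1 : (p t - p s) * (-A t) = p s * (G t + A t) := by linear_combination -h3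
  have e2 : |p t - p s| * (-A t) = |p s| * |G t + A t| := by
    rw [← abs_mul, ← e1, abs_mul, abs_of_pos (show 0 < -A t by linarith)]
  have e3 : |p t - p s| * q ≤ |p s| * |G t + A t| := by
    rw [← e2]
    exact mul_le_mul_of_nonneg_left hAq (abs_nonneg _)
  have e4 : |p s| * |G t + A t| ≤ (|p s| + 1) * (ε * (t - s) ^ 3) :=
    mul_le_mul (by linarith) k1 (abs_nonneg _) (by positivity)
  have e5 : (|p s| + 1) * (ε * (t - s) ^ 3) = r * (t - s) * q := by
    rw [hε, hq]
    field_simp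
  have e6 : |p t - p s| * q ≤ r * (t - s) * q := by linarith
  exact le_of_mul_le_mul_right e6 hqpos

end Vale.Agent.P097
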