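import Vale.Agent.P097.Profile
import Vale.Agent.P097.Dini

/-!
P097.  Approximate first integrals `g(s) sin δ`, up to `o` of fourth order.
-/

namespace Vale.Agent.P097

open Complex Set
open scoped ContDiff

/-- `|r t| ≤ ε (t - s)^k` at points `t → s+` -/
def ApAcc (r : ℝ → ℝ) (s : ℝ) (k : ℕ) : Prop :=
  ∀ ε, 0 < ε → ∀ e, 0 < e → ∃ t, s < t ∧ t < s + e ∧ |r t| ≤ ε * (t - s) ^ k

theorem Lit.up {S U ph : ℝ → ℝ} {s c : ℝ} {k : ℕ} (h : Lit (fun t => S t - c * (t - s) ^ k) s k)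
    (hc : ContinuousAt ph s) (hU : ∀ t, HasDerivAt U (ph t * S t) t) (h0 : U s = 0) :
    Lit (fun t => U t - ph s * c / (k + 1) * (t - s) ^ (k + 1)) s (k + 1) := by
  have h1 := h.mul hc
  -- (ph t - ph s) * c * (t - s)^k is o((t-s)^k)
  have h2 : Lit (fun t => (ph t - ph s) * (c * (t - s) ^ k)) s k := by
    intro ε hε
    obtain ⟨d, hd, hh⟩ := Metric.continuousAt_iff.mp hc (ε / (|c| + 1)) (by positivity)
    refine ⟨d, hd, fun t h1 h2 => ?_⟩
    have h3 := hh (x := t) (by rw [Real.dist_eq, abs_of_pos (by linarith)]; linarith)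
    rw [Real.dist_eq] at h3
    have h4 : 0 ≤ (t - s) ^ k := pow_nonneg (by linarith) k
    rw [abs_mul, abs_mul, abs_of_nonneg h4]
    calc |ph t - ph s| * (|c| * (t - s) ^ k)
        ≤ ε / (|c| + 1) * ((|c| + 1) * (t - s) ^ k) :=
          mul_le_mul h3.le (mul_le_mul_of_nonneg_right (by linarith) h4) (by positivity)
            (by positivity)
      _ = ε * (t - s) ^ k := by field_simp
  have h3 : Lit (fun t => ph t * S t - ph s * c * (t - s) ^ k) s k := by
    intro ε hε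
    obtain ⟨d1, hd1, e1⟩ := h1 (ε / 2) (by linarith)
    obtain ⟨d2, hd2, e2⟩ := h2 (ε / 2) (by linarith)
    refine ⟨min d1 d2, lt_min hd1 hd2, fun t k1 k2 => ?_⟩
    have f1 := e1 t k1 (by linarith [min_le_left d1 d2])
    have f2 := e2 t k1 (by linarith [min_le_right d1 d2])
    have e : ph t * S t - ph s * c * (t - s) ^ k
        = ph t * (S t - c * (t - s) ^ k) + (ph t - ph s) * (c * (t - s) ^ k) := by ring
    simp only at f1 f2 ⊢
    rw [e]
    refine (abs_add_le _ _).trans ?_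
    linarith
  refine h3.step (fun t => ?_) (by simp [h0])
  have k1 := (hU t).sub ((((hasDerivAt_id t).sub_const s).pow (k + 1)).const_mul
    (ph s * c / (k + 1)))
  refine k1.congr_deriv ?_
  have : ((k : ℝ) + 1) ≠ 0 := by positivity
  simp only [id_eq, Nat.cast_add, Nat.cast_one, add_tsub_cancel_right, mul_one]
  field_simp

theorem Five.slope' {ph A B G E F m m1 p : ℝ → ℝ} {s ph' : ℝ} (h : Five ph A B G E F m s)
    (hph : HasDerivAt ph ph' s) (hG0 : G s = 0)
    (hm : ∀ t, HasDerivAt m (ph t * m1 t) t)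
    (hz : ApAcc (fun t => p s * G t + p t * A t) s 5) (r : ℝ) (hr : 0 < r) (e : ℝ)
    (he : 0 < e) : ∃ t, s < t ∧ t < s + e ∧ |p t - p s| ≤ r * (t - s) := by
  -- K = G + A is o((t-s)^3)
  have d0 : ∀ t, HasDerivAt (fun t => G t + A t) (ph t * (E t + B t)) t := fun t =>
    ((h.dG t).add (h.dA t)).congr_deriv (by ring)
  have d1 : ∀ t, HasDerivAt (fun t => E t + B t) (ph t * (F t - m t * A t - 1)) t := fun t =>
    ((h.dE t).add (h.dB t)).congr_deriv (by ring)
  have d2 : ∀ t, HasDerivAt (fun t => F t - m t * A t - 1)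
      (ph t * (-(m t * E t) - m1 t * A t - m t * B t)) t := fun t =>
    (((h.dF t).sub ((hm t).mul (h.dA t))).sub_const 1).congr_deriv (by ring)
  have l1 : Lit (fun t => ph t * (F t - m t * A t - 1)) s 1 := by
    apply lit_start
    · refine (hph.mul (d2 s)).congr_deriv ?_
      rw [h.A0, h.B0, h.E0, h.F0]; ring
    · rw [h.A0, h.F0]; ring
  have l2 : Lit (fun t => E t + B t) s 2 := l1.step d1 (by simp only [h.E0, h.B0, add_zero])
  have l3 : Lit (fun t => G t + A t) s 3 :=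
    (l2.mul hph.continuousAt).step d0 (by simp only [hG0, h.A0, add_zero])
  -- A is about -(ph s)^2 (t - s)^2 / 2
  have g1 : Lit (fun t => ph t * B t + ph s ^ 2 * (t - s)) s 1 := by
    apply lit_start
    · have k := (hph.mul (h.dB s)).add (((hasDerivAt_id s).sub_const s).const_mul (ph s ^ 2))
      refine k.congr_deriv ?_
      rw [h.A0, h.B0]; ring
    · simp only [h.B0, sub_self, mul_zero, add_zero]
  have g2 : Lit (fun t => A t + ph s ^ 2 / 2 * (t - s) ^ 2) s 2 := by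
    refine g1.step (fun t => ?_) (by simp [h.A0])
    have k := (h.dA t).add ((((hasDerivAt_id t).sub_const s).pow 2).const_mul (ph s ^ 2 / 2))
    exact k.congr_deriv (by norm_num; ring)
  have hps := h.pos s
  obtain ⟨d2', hd2, hA⟩ := g2 (ph s ^ 2 / 4) (by positivity)
  obtain ⟨ε, hε⟩ : ∃ ε, ε = r * (ph s ^ 2 / 4) / (|p s| + 2) := ⟨_, rfl⟩
  have hε0 : 0 < ε := by rw [hε]; positivity
  obtain ⟨d3, hd3, hK⟩ := l3 ε hε0
  obtain ⟨t, h1, h2, h3⟩ := hz ε hε0 (min (min e 1) (min d2' d3))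
    (lt_min (lt_min he one_pos) (lt_min hd2 hd3))
  have m0' := (min_le_left (min e 1) (min d2' d3)).trans (min_le_left e 1)
  have m1' := (min_le_left (min e 1) (min d2' d3)).trans (min_le_right e 1)
  have m2' := (min_le_right (min e 1) (min d2' d3)).trans (min_le_left d2' d3)
  have m3' := (min_le_right (min e 1) (min d2' d3)).trans (min_le_right d2' d3)
  refine ⟨t, h1, by linarith, ?_⟩
  have a1 := (abs_le.mp (hA t h1 (by linarith))).2
  have k1 := hK t h1 (by linarith)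
  have hpos : 0 < t - s := by linarith
  have hle1 : t - s ≤ 1 := by linarith
  obtain ⟨q, hq⟩ : ∃ q, q = ph s ^ 2 / 4 * (t - s) ^ 2 := ⟨_, rfl⟩
  have hqpos : 0 < q := by rw [hq]; positivity
  have hAq : q ≤ -A t := by
    rw [hq]
    have : ph s ^ 2 / 2 * (t - s) ^ 2 = ph s ^ 2 / 4 * (t - s) ^ 2
      + ph s ^ 2 / 4 * (t - s) ^ 2 := by ring
    linarith
  have e1 : (p t - p s) * (-A t) = p s * (G t + A t) - (p s * G t + p t * A t) := by ring
  have e2 : |p t - p s| * (-A t) ≤ |p s| * |G t + A t| + |p s * G t + p t * A t| := by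
    have k : |(p t - p s) * (-A t)| ≤ |p s * (G t + A t)| + |p s * G t + p t * A t| := by
      rw [e1]; exact abs_sub _ _
    rwa [abs_mul, abs_mul, abs_of_pos (show 0 < -A t by linarith)] at k
  have e3 : |p t - p s| * q ≤ |p t - p s| * (-A t) :=
    mul_le_mul_of_nonneg_left hAq (abs_nonneg _)
  have e4 : |p s| * |G t + A t| ≤ (|p s| + 1) * (ε * (t - s) ^ 3) :=
    mul_le_mul (by linarith) k1 (abs_nonneg _) (by positivity)
  have e5 : ε * (t - s) ^ 5 ≤ ε * (t - s) ^ 3 :=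
    mul_le_mul_of_nonneg_left (pow_le_pow_of_le_one hpos.le hle1 (by norm_num)) hε0.le
  have e6 : (|p s| + 2) * (ε * (t - s) ^ 3) = r * (t - s) * q := by
    rw [hε, hq]
    field_simp
  have e7 : |p t - p s| * q ≤ r * (t - s) * q := by
    have : (|p s| + 2) * (ε * (t - s) ^ 3)
        = (|p s| + 1) * (ε * (t - s) ^ 3) + ε * (t - s) ^ 3 := by ring
    linarith
  exact le_of_mul_le_mul_right e7 hqpos

theorem Five.stage2' {ph A B G E F m m1 m2 m3 : ℝ → ℝ} {s : ℝ} (h : Five ph A B G E F m s)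
    (hph : ContinuousAt ph s) (hG0 : G s = 0)
    (hm : ∀ t, HasDerivAt m (ph t * m1 t) t) (hm1 : ∀ t, HasDerivAt m1 (ph t * m2 t) t)
    (hm2 : ∀ t, HasDerivAt m2 (ph t * m3 t) t)
    (hz : ApAcc (fun t => G t + A t) s 5) : m1 s = 0 := by
  have d0 : ∀ t, HasDerivAt (fun t => G t + A t) (ph t * (E t + B t)) t := fun t =>
    ((h.dG t).add (h.dA t)).congr_deriv (by ring)
  have d1 : ∀ t, HasDerivAt (fun t => E t + B t) (ph t * (F t - m t * A t - 1)) t := fun t =>
    ((h.dE t).add (h.dB t)).congr_deriv (by ring)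
  have d2 : ∀ t, HasDerivAt (fun t => F t - m t * A t - 1)
      (ph t * (-(m t * E t) - m1 t * A t - m t * B t)) t := fun t =>
    (((h.dF t).sub ((hm t).mul (h.dA t))).sub_const 1).congr_deriv (by ring)
  have d3 : ∀ t, HasDerivAt (fun t => -(m t * E t) - m1 t * A t - m t * B t)
      (ph t * (-(m1 t * E t) - m t * F t - m2 t * A t - 2 * m1 t * B t + m t ^ 2 * A t
        + m t)) t := fun t =>
    (((((hm t).mul (h.dE t)).neg).sub ((hm1 t).mul (h.dA t))).sub
      ((hm t).mul (h.dB t))).congr_deriv (by ring)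
  have d4 : ∀ t, HasDerivAt (fun t => -(m1 t * E t) - m t * F t - m2 t * A t
      - 2 * m1 t * B t + m t ^ 2 * A t + m t)
      (ph t * (-(m2 t * E t) - m1 t * F t - m1 t * F t + m t ^ 2 * E t - m3 t * A t
        - m2 t * B t - 2 * m2 t * B t + 2 * m1 t * (m t * A t + 1) + 2 * m t * m1 t * A t
        + m t ^ 2 * B t + m1 t)) t := fun t =>
    (((((((hm1 t).mul (h.dE t)).neg).sub ((hm t).mul (h.dF t))).sub
      ((hm2 t).mul (h.dA t))).sub (((hm1 t).const_mul 2).mul (h.dB t))).add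
      (((hm t).pow 2).mul (h.dA t))).add (hm t) |>.congr_deriv (by norm_num; ring)
  have L4 : Lit (fun t => (-(m1 t * E t) - m t * F t - m2 t * A t
      - 2 * m1 t * B t + m t ^ 2 * A t + m t) - ph s * m1 s * (t - s) ^ 1) s 1 := by
    apply lit_start
    · have k := (d4 s).sub ((((hasDerivAt_id s).sub_const s).pow 1).const_mul (ph s * m1 s))
      refine k.congr_deriv ?_
      rw [h.A0, h.B0, h.E0, h.F0]
      norm_num
      ring
    · rw [h.A0, h.B0, h.E0, h.F0]; ring
  have L3 := L4.up hph d3 (by rw [h.A0, h.B0, h.E0]; ring)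
  have L2 := L3.up hph d2 (by rw [h.A0, h.F0]; ring)
  have L1 := L2.up hph d1 (by rw [h.B0, h.E0]; ring)
  have L0 := L1.up hph d0 (by rw [h.A0, hG0]; ring)
  obtain ⟨C, hC⟩ : ∃ C, C = ph s * (ph s * (ph s * (ph s * (ph s * m1 s) / ((1 : ℕ) + 1))
    / ((1 + 1 : ℕ) + 1)) / ((1 + 1 + 1 : ℕ) + 1)) / ((1 + 1 + 1 + 1 : ℕ) + 1) := ⟨_, rfl⟩
  rw [← hC] at L0
  have hC0 : C = 0 := by
    by_contra hne
    have hCp : 0 < |C| := abs_pos.mpr hne
    obtain ⟨d, hd, hL⟩ := L0 (|C| / 4) (by linarith)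
    obtain ⟨t, h1, h2, h3⟩ := hz (|C| / 4) (by linarith) d hd
    have h4 := hL t h1 h2
    have hpos : 0 < (t - s) ^ 5 := pow_pos (by linarith) 5
    simp only at h3
    have h5 : |C * (t - s) ^ 5| ≤ |G t + A t| + |G t + A t - C * (t - s) ^ 5| := by
      have e : C * (t - s) ^ 5 = (G t + A t) - (G t + A t - C * (t - s) ^ 5) := by ring
      calc |C * (t - s) ^ 5| = |(G t + A t) - (G t + A t - C * (t - s) ^ 5)| := by rw [← e]
        _ ≤ _ := abs_sub _ _
    rw [abs_mul, abs_of_pos hpos] at h5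
    have h6 : |C| * (t - s) ^ 5 ≤ |C| / 4 * (t - s) ^ 5 + |C| / 4 * (t - s) ^ 5 := by
      refine h5.trans (add_le_add h3 h4)
    have h7 : 0 < |C| / 2 * (t - s) ^ 5 := by positivity
    linarith
  have hps := h.pos s
  rw [hC] at hC0
  have hC1 : C = ph s ^ 5 / 120 * m1 s := by
    rw [hC]; norm_num; ring
  rw [← hC, hC1] at hC0
  exact (mul_eq_zero.mp hC0).resolve_left (by positivity)

theorem Maps.len {γ : ℝ → ℂ} {L s δ t δ' : ℝ} (hm : Maps γ L s δ t δ') (hT : Table γ L) :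
    ∃ r : ℝ, 0 < r ∧ r ≤ t - s ∧
      (deriv γ s).re * ((γ t).im - (γ s).im) - (deriv γ s).im * ((γ t).re - (γ s).re)
        = r * Real.sin δ ∧
      (deriv γ t).re * ((γ t).im - (γ s).im) - (deriv γ t).im * ((γ t).re - (γ s).re)
        = -(r * Real.sin δ') := by
  have us := hT.unit' s
  have ut := hT.unit' t
  obtain ⟨hst, -, -, -, -, -, r, hr, h1, h2⟩ := hm
  have hlen : r ≤ t - s := by
    have n1 : ‖γ t - γ s‖ = r := by
      rw [h1, norm_mul, norm_mul, hT.unit s, norm_exp_ofReal_mul_I, norm_real, Real.norm_eq_abs,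
        abs_of_pos hr]
      ring
    have n2 := (convex_Icc s t).norm_image_sub_le_of_norm_hasDerivWithin_le
      (f := γ) (f' := deriv γ) (C := 1)
      (fun u _ => (hT.hasDeriv u).hasDerivWithinAt) (fun u _ => (hT.unit u).le)
      (left_mem_Icc.mpr hst.le) (right_mem_Icc.mpr hst.le)
    rw [n1, Real.norm_eq_abs, abs_of_pos (by linarith), one_mul] at n2
    exact n2
  have x1 := congrArg Complex.re h1
  have y1 := congrArg Complex.im h1
  have x2 := congrArg Complex.re h2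
  have y2 := congrArg Complex.im h2
  rw [← neg_mul, ← ofReal_neg] at x2 y2
  simp only [mul_re, mul_im, sub_re, sub_im, ofReal_re, ofReal_im, exp_ofReal_mul_I_re,
    exp_ofReal_mul_I_im, zero_mul, sub_zero, add_zero, Real.cos_neg, Real.sin_neg] at x1 y1 x2 y2
  obtain ⟨c, hc⟩ : ∃ z, z = (deriv γ s).re := ⟨_, rfl⟩
  obtain ⟨d, hd⟩ : ∃ z, z = (deriv γ s).im := ⟨_, rfl⟩
  obtain ⟨c', hc'⟩ : ∃ z, z = (deriv γ t).re := ⟨_, rfl⟩
  obtain ⟨d', hd'⟩ : ∃ z, z = (deriv γ t).im := ⟨_, rfl⟩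
  rw [← hc, ← hd] at x1 y1 us
  rw [← hc', ← hd'] at x2 y2 ut
  rw [← hc, ← hd, ← hc', ← hd']
  refine ⟨r, hr, hlen, ?_, ?_⟩
  · rw [x1, y1]; linear_combination (r * Real.sin δ) * us
  · rw [x2, y2]; linear_combination (-(r * Real.sin δ')) * ut

theorem approx (γ : ℝ → ℂ) (L : ℝ) (hT : Table γ L) (hsm : ContDiff ℝ ∞ γ)
    (hκ : ∀ s, 0 < ((starRingEnd ℂ) (deriv γ s) * deriv (deriv γ) s).im)
    (g : ℝ → ℝ) (hg : Continuous g) (hne : ∃ s, g s ≠ 0)
    (hinv : ∀ s ε, 0 < ε → ∀ e, 0 < e → ∃ δ t δ', t < s + e ∧ Maps γ L s δ t δ' ∧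
      |g t * Real.sin δ' - g s * Real.sin δ| ≤ ε * (t - s) ^ 4) :
    IsEllipse (range γ) := by
  have hC := hT.curve
  obtain ⟨x, hx⟩ : ∃ x : ℝ → ℝ, x = fun s => (γ s).re := ⟨_, rfl⟩
  obtain ⟨y, hy⟩ : ∃ x : ℝ → ℝ, x = fun s => (γ s).im := ⟨_, rfl⟩
  obtain ⟨c, hc⟩ : ∃ x : ℝ → ℝ, x = fun s => (deriv γ s).re := ⟨_, rfl⟩
  obtain ⟨d, hd⟩ : ∃ x : ℝ → ℝ, x = fun s => (deriv γ s).im := ⟨_, rfl⟩
  rw [← hx, ← hy, ← hc, ← hd] at hC
  have hsm' : ContDiff ℝ ∞ (deriv γ) := (contDiff_infty_iff_deriv.mp hsm).2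
  have sc : ContDiff ℝ ∞ c := by rw [hc]; exact Complex.reCLM.contDiff.comp hsm'
  have sd : ContDiff ℝ ∞ d := by rw [hd]; exact Complex.imCLM.contDiff.comp hsm'
  have hκ' : ∀ s, 0 < c s * deriv d s - d s * deriv c s := by
    intro s
    have h2 : HasDerivAt (deriv γ) (deriv (deriv γ) s) s :=
      ((contDiff_infty_iff_deriv.mp hsm').1 s).hasDerivAt
    have e1 : deriv c s = (deriv (deriv γ) s).re := by
      rw [hc]; exact (Complex.reCLM.hasFDerivAt.comp_hasDerivAt s h2).deriv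
    have e2 : deriv d s = (deriv (deriv γ) s).im := by
      rw [hd]; exact (Complex.imCLM.hasFDerivAt.comp_hasDerivAt s h2).deriv
    have := hκ s
    simp only [mul_im, conj_re, conj_im] at this
    rw [e1, e2, hc, hd]
    simp only
    linarith
  obtain ⟨ph, m, Y1, Y2, sph, sm, hA⟩ := exists_affine hC.hx hC.hy sc sd hκ'
  have pph := hA.pos
  -- the coefficient p
  obtain ⟨p, hp⟩ : ∃ p : ℝ → ℝ, p = fun s => ph s * g s := ⟨_, rfl⟩
  have sp : Continuous p := by rw [hp]; exact sph.continuous.mul hg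
  have sm1 := Dd_smooth sph pph sm
  have sm2 := Dd_smooth sph pph sm1
  -- accumulation of approximate zeros
  have hacc : ∀ s, ApAcc (fun t => p s * (c s / ph s * (y t - y s) - d s / ph s * (x t - x s))
      + p t * (c t / ph t * (y t - y s) - d t / ph t * (x t - x s))) s 5 := by
    intro s ε hε e he
    obtain ⟨δ, t, δ', h2, hM, hb⟩ := hinv s ε hε e he
    have h1 : s < t := hM.1
    obtain ⟨r, hr, hrl, g1, g2⟩ := hM.len hT
    refine ⟨t, h1, h2, ?_⟩
    have g1' : c s * (y t - y s) - d s * (x t - x s) = r * Real.sin δ := by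
      rw [hc, hd, hx, hy]; exact g1
    have g2' : c t * (y t - y s) - d t * (x t - x s) = -(r * Real.sin δ') := by
      rw [hc, hd, hx, hy]; exact g2
    have e1 : p s * (c s / ph s * (y t - y s) - d s / ph s * (x t - x s))
        = g s * (c s * (y t - y s) - d s * (x t - x s)) := by
      rw [hp]
      have := (pph s).ne'
      field_simp
    have e2 : p t * (c t / ph t * (y t - y s) - d t / ph t * (x t - x s))
        = g t * (c t * (y t - y s) - d t * (x t - x s)) := by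
      rw [hp]
      have := (pph t).ne'
      field_simp
    simp only
    rw [e1, e2, g1', g2']
    have e3 : g s * (r * Real.sin δ) + g t * -(r * Real.sin δ')
        = -(r * (g t * Real.sin δ' - g s * Real.sin δ)) := by ring
    rw [e3, abs_neg, abs_mul, abs_of_pos hr]
    have hpos : 0 < t - s := by linarith
    calc r * |g t * Real.sin δ' - g s * Real.sin δ| ≤ (t - s) * (ε * (t - s) ^ 4) :=
          mul_le_mul hrl hb (abs_nonneg _) hpos.le
      _ = ε * (t - s) ^ 5 := by ring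
  -- stage 1
  have pconst : ∀ s t, p s = p t := const_of_slopes sp (fun s r hr e he =>
    (hA.five s).slope' ((contDiff_infty_iff_deriv.mp sph).1 s).hasDerivAt (by simp)
      (Dd_has pph sm) (hacc s) r hr e he)
  have pne : ∀ s, p s ≠ 0 := by
    obtain ⟨s0, hs0⟩ := hne
    intro s
    rw [pconst s s0, hp]
    exact mul_ne_zero (pph s0).ne' hs0
  -- stage 2
  have st2 : ∀ s, Dd ph m s = 0 := by
    intro s
    refine (hA.five s).stage2' sph.continuous.continuousAt (by simp) (Dd_has pph sm)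
      (Dd_has pph sm1) (Dd_has pph sm2) ?_
    intro ε hε e he
    have hps : 0 < |p s| := abs_pos.mpr (pne s)
    obtain ⟨t, h1, h2, h3⟩ := hacc s (|p s| * ε) (by positivity) e he
    refine ⟨t, h1, h2, ?_⟩
    simp only at h3 ⊢
    rw [pconst t s, ← mul_add, abs_mul, mul_assoc] at h3
    exact le_of_mul_le_mul_left h3 hps
  have mconst : ∀ t, m t = m 0 := by
    intro t
    have hder : ∀ s, HasDerivAt m 0 s := by
      intro s
      have := Dd_has pph sm s
      rw [st2 s, mul_zero] at this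
      exact this
    exact is_const_of_deriv_eq_zero (fun s => (hder s).differentiableAt)
      (fun s => (hder s).deriv) t 0
  obtain ⟨q0, q1, q2, A, B, C, hq, hq2⟩ := hA.conic (m 0) mconst
  refine isEllipse_of_conic hT hq (fun s => ?_)
  have := hq2 s
  rw [hx, hy] at this
  exact this

end Vale.Agent.P097
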