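import Vale.Agent.P097.Small

/-!
P097.  From every boundary point there are chords in all small directions.
-/

namespace Vale.Agent.P097

open Complex Set

theorem Table.mkMaps {γ : ℝ → ℂ} {L : ℝ} (h : Table γ L) {s t : ℝ} (hst : s < t)
    (hte : t < s + L) :
    Maps γ L s (arg ((starRingEnd ℂ) (deriv γ s) * (γ t - γ s))) t
      (arg (deriv γ t * (starRingEnd ℂ) (γ t - γ s))) := by
  have hne : γ s ≠ γ t := h.simple s t hst hte
  obtain ⟨D, hD⟩ : ∃ D, D = γ t - γ s := ⟨_, rfl⟩
  have i1 : 0 < ((starRingEnd ℂ) (deriv γ s) * D).im := by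
    rw [hD]; exact h.left s t hne.symm
  have i2 : 0 < (deriv γ t * (starRingEnd ℂ) D).im := by
    have := h.left t s hne
    have e1 : (deriv γ t * (starRingEnd ℂ) D).im
        = ((starRingEnd ℂ) (deriv γ t) * (γ s - γ t)).im := by
      rw [hD]
      simp only [mul_im, conj_re, conj_im, sub_re, sub_im]
      ring
    rw [e1]; exact this
  have us := unit_mul (h.unit s)
  have ut := unit_mul (h.unit t)
  rw [← hD]
  refine ⟨hst, hte, (arg_pos_lt i1).1, (arg_pos_lt i1).2, (arg_pos_lt i2).1, (arg_pos_lt i2).2,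
    ‖D‖, ?_, ?_, ?_⟩
  · rw [norm_pos_iff, hD]
    exact sub_ne_zero.mpr hne.symm
  · have k := norm_mul_exp_arg_mul_I ((starRingEnd ℂ) (deriv γ s) * D)
    rw [norm_mul, norm_conj, h.unit s, one_mul] at k
    rw [k, ← hD]
    linear_combination (-D) * us
  · have k := norm_mul_exp_arg_mul_I (deriv γ t * (starRingEnd ℂ) D)
    rw [norm_mul, norm_conj, h.unit t, one_mul] at k
    have k2 := congrArg (starRingEnd ℂ) k
    rw [map_mul, map_mul, conj_ofReal, conj_conj, ← exp_conj, map_mul, conj_ofReal, conj_I,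
      mul_neg] at k2
    rw [k2, ← hD]
    linear_combination (-D) * ut

theorem Table.chord {γ : ℝ → ℂ} {L : ℝ} (h : Table γ L) (s e : ℝ) (he : 0 < e) :
    ∃ δ0, 0 < δ0 ∧ ∀ δ, 0 < δ → δ < δ0 →
      ∃ t δ', s < t ∧ t < s + e ∧ Maps γ L s δ t δ' := by
  have hL := h.pos
  obtain ⟨e', he'⟩ : ∃ e', e' = min e L / 2 := ⟨_, rfl⟩
  have hm : 0 < min e L := lt_min he hL
  have e0 : 0 < e' := by rw [he']; linarith
  have e1 : e' < e := by rw [he']; linarith [min_le_left e L]
  have e2 : e' < L := by rw [he']; linarith [min_le_right e L]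
  obtain ⟨w, hw⟩ : ∃ w : ℝ → ℂ, w = fun t => (starRingEnd ℂ) (deriv γ s) * dslope γ s t :=
    ⟨_, rfl⟩
  have hcd : ∀ t, ContinuousAt (dslope γ s) t := by
    intro t
    rcases eq_or_ne t s with rfl | hts
    · exact continuousAt_dslope_same.mpr (h.hasDeriv t).differentiableAt
    · exact (continuousAt_dslope_of_ne hts).mpr (h.hasDeriv t).continuousAt
  have hcw : ∀ t, ContinuousAt w t := by
    intro t
    rw [hw]
    exact continuousAt_const.mul (hcd t)
  have hws : w s = 1 := by
    have := unit_mul (h.unit s)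
    rw [hw]
    simp only [dslope_same]
    linear_combination this
  have hwt : ∀ t, s < t → t < s + L →
      arg (w t) = arg ((starRingEnd ℂ) (deriv γ s) * (γ t - γ s)) ∧ 0 < (w t).im := by
    intro t h1 h2
    have hinv : 0 < (t - s)⁻¹ := by
      have : 0 < t - s := by linarith
      positivity
    have k : w t = (((t - s)⁻¹ : ℝ) : ℂ) * ((starRingEnd ℂ) (deriv γ s) * (γ t - γ s)) := by
      rw [hw]
      simp only
      rw [dslope_of_ne _ h1.ne', slope_def_module, real_smul]
      ring
    constructor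
    · rw [k, arg_real_mul _ hinv]
    · rw [k, im_ofReal_mul]
      exact mul_pos hinv (h.left s t (h.simple s t h1 h2).symm)
  have hsl : ∀ t, s ≤ t → t < s + L → w t ∈ slitPlane := by
    intro t h1 h2
    rcases eq_or_lt_of_le h1 with rfl | h3
    · rw [hws]; simp
    · exact Or.inr (hwt t h3 h2).2.ne'
  have hcont : ContinuousOn (fun t => arg (w t)) (Icc s (s + e')) := by
    intro t ht
    have h1 := hsl t ht.1 (by linarith [ht.2])
    exact ((continuousAt_arg h1).comp (hcw t)).continuousWithinAt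
  have hθs : arg (w s) = 0 := by rw [hws, arg_one]
  refine ⟨arg (w (s + e')), (arg_pos_lt (hwt (s + e') (by linarith) (by linarith)).2).1,
    fun δ hδ hδ2 => ?_⟩
  have hivt := intermediate_value_Icc (show s ≤ s + e' by linarith) hcont
  obtain ⟨t, ht, htδ⟩ := hivt ⟨by simp only [hθs]; exact hδ.le, hδ2.le⟩
  have hne : s ≠ t := by
    rintro rfl
    simp only [hθs] at htδ
    exact hδ.ne htδ
  have hst : s < t := lt_of_le_of_ne ht.1 hne
  have htL : t < s + L := by linarith [ht.2]
  have hM := h.mkMaps hst htL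
  rw [← (hwt t hst htL).1] at hM
  simp only at htδ
  rw [htδ] at hM
  exact ⟨t, _, hst, by linarith [ht.2], hM⟩

end Vale.Agent.P097
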