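import Mathlib

/-!
P097.  A closed strictly convex `C¹` curve that lies on the zero set of a nonzero polynomial of
degree at most two is an ellipse.
-/

namespace Vale.Agent.P097

open Matrix

/-- Coordinates of a closed strictly convex curve. -/
structure Curve (x y c d : ℝ → ℝ) (L : ℝ) : Prop where
  pos : 0 < L
  hx : ∀ s, HasDerivAt x (c s) s
  hy : ∀ s, HasDerivAt y (d s) s
  unit : ∀ s, c s ^ 2 + d s ^ 2 = 1
  px : ∀ s, x (s + L) = x s
  py : ∀ s, y (s + L) = y s
  left : ∀ s t, s < t → t < s + L → 0 < c s * (y t - y s) - d s * (x t - x s)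
  right : ∀ s t, s < t → t < s + L → 0 < c t * (y s - y t) - d t * (x s - x t)

theorem Curve.cross_ne {x y c d : ℝ → ℝ} {L : ℝ} (h : Curve x y c d L) {r s t : ℝ} (h1 : r < s)
    (h2 : s < t) (h3 : t < r + L) :
    (x s - x r) * (y t - y r) - (x t - x r) * (y s - y r) ≠ 0 := by
  intro h0
  have A1 := h.left r s h1 (by linarith)
  have A2 := h.left r t (by linarith) h3
  have B1 := h.right r s h1 (by linarith)
  have B2 := h.left s t h2 (by linarith)
  have C1 := h.right r t (by linarith) h3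
  have C2 := h.right s t h2 (by linarith)
  obtain ⟨p, hp⟩ : ∃ p, p = x s - x r := ⟨_, rfl⟩
  obtain ⟨p', hp'⟩ : ∃ p, p = y s - y r := ⟨_, rfl⟩
  obtain ⟨q, hq⟩ : ∃ p, p = x t - x r := ⟨_, rfl⟩
  obtain ⟨q', hq'⟩ : ∃ p, p = y t - y r := ⟨_, rfl⟩
  have e1 : x t - x s = q - p := by rw [hp, hq]; ring
  have e2 : y t - y s = q' - p' := by rw [hp', hq']; ring
  have e3 : x r - x s = -p := by rw [hp]; ring
  have e4 : y r - y s = -p' := by rw [hp']; ring
  have e5 : x r - x t = -q := by rw [hq]; ring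
  have e6 : y r - y t = -q' := by rw [hq']; ring
  have e7 : x s - x t = p - q := by rw [hp, hq]; ring
  have e8 : y s - y t = p' - q' := by rw [hp', hq']; ring
  rw [← hp, ← hp', ← hq, ← hq'] at h0
  rw [← hp, ← hp'] at A1
  rw [← hq, ← hq'] at A2
  rw [e3, e4] at B1
  rw [e1, e2] at B2
  rw [e5, e6] at C1
  rw [e7, e8] at C2
  have hN : 0 < p ^ 2 + p' ^ 2 := by
    rcases eq_or_ne p 0 with h4 | h4
    · rcases eq_or_ne p' 0 with h5 | h5
      · rw [h4, h5] at A1; simp at A1
      · positivity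
    · positivity
  obtain ⟨l, hl⟩ : ∃ l, l = (p * q + p' * q') / (p ^ 2 + p' ^ 2) := ⟨_, rfl⟩
  have f1 : q = l * p := by
    rw [hl, div_mul_eq_mul_div, eq_div_iff hN.ne']
    linear_combination (-p') * h0
  have f2 : q' = l * p' := by
    rw [hl, div_mul_eq_mul_div, eq_div_iff hN.ne']
    linear_combination p * h0
  rw [f1, f2] at A2 B2 C1 C2
  have g1 : 0 < l := by
    by_contra hcon
    have : l * (c r * p' - d r * p) ≤ 0 := mul_nonpos_of_nonpos_of_nonneg (by linarith) A1.le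
    linarith
  have g2 : l < 1 := by
    by_contra hcon
    have : 0 ≤ (l - 1) * (c s * (-p') - d s * (-p)) := mul_nonneg (by linarith) B1.le
    linarith
  have g3 : 0 < (1 - l) * (c t * p' - d t * p) := by linarith
  have g4 : 0 < -(l * (c t * p' - d t * p)) := by linarith
  have g5 : 0 < c t * p' - d t * p := by
    by_contra hcon
    have : (1 - l) * (c t * p' - d t * p) ≤ 0 :=
      mul_nonpos_of_nonneg_of_nonpos (by linarith) (by linarith)
    linarith
  have g6 := mul_pos g1 g5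
  linarith

/-- An affine function that vanishes at three points of the curve vanishes. -/
theorem Curve.affine_zero {x y c d : ℝ → ℝ} {L : ℝ} (h : Curve x y c d L) {r s t : ℝ} (h1 : r < s)
    (h2 : s < t) (h3 : t < r + L) {n0 n1 n2 : ℝ} (hr : n0 + n1 * x r + n2 * y r = 0)
    (hs : n0 + n1 * x s + n2 * y s = 0) (ht : n0 + n1 * x t + n2 * y t = 0) :
    n0 = 0 ∧ n1 = 0 ∧ n2 = 0 := by
  have hc := h.cross_ne h1 h2 h3
  have k1 : n1 = 0 := by
    have : ((x s - x r) * (y t - y r) - (x t - x r) * (y s - y r)) * n1 = 0 := by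
      linear_combination (y t - y r) * (hs - hr) - (y s - y r) * (ht - hr)
    exact (mul_eq_zero.mp this).resolve_left hc
  have k2 : n2 = 0 := by
    have : ((x s - x r) * (y t - y r) - (x t - x r) * (y s - y r)) * n2 = 0 := by
      linear_combination (x s - x r) * (ht - hr) - (x t - x r) * (hs - hr)
    exact (mul_eq_zero.mp this).resolve_left hc
  refine ⟨?_, k1, k2⟩
  rw [k1, k2] at hr
  linarith

theorem Curve.exists_max {x y c d : ℝ → ℝ} {L : ℝ} (h : Curve x y c d L) (u v : ℝ) :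
    ∃ s, (∀ t, u * x t + v * y t ≤ u * x s + v * y s) ∧ u * c s + v * d s = 0 := by
  have hder : ∀ s, HasDerivAt (fun t => u * x t + v * y t) (u * c s + v * d s) s := fun s =>
    ((h.hx s).const_mul u).add ((h.hy s).const_mul v)
  have hcont : Continuous (fun t => u * x t + v * y t) :=
    continuous_iff_continuousAt.mpr fun s => (hder s).continuousAt
  obtain ⟨s, -, hs⟩ := (isCompact_Icc (a := (0 : ℝ)) (b := L)).exists_isMaxOn
    (Set.nonempty_Icc.mpr h.pos.le) hcont.continuousOn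
  have hper : Function.Periodic (fun t => u * x t + v * y t) L := fun t => by
    simp only [h.px, h.py]
  have hmax : ∀ t, u * x t + v * y t ≤ u * x s + v * y s := by
    intro t
    obtain ⟨t', ht', heq⟩ := hper.exists_mem_Ico₀ h.pos t
    have := hs (Set.Ico_subset_Icc_self ht')
    calc u * x t + v * y t = u * x t' + v * y t' := heq
      _ ≤ _ := this
  refine ⟨s, hmax, ?_⟩
  have hloc : IsLocalMax (fun t => u * x t + v * y t) s := Filter.Eventually.of_forall hmax
  exact hloc.hasDerivAt_eq_zero (hder s)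

theorem Curve.deriv_conic {x y c d : ℝ → ℝ} {L : ℝ} (h : Curve x y c d L) {q0 q1 q2 A B C : ℝ}
    (hq : ∀ s, q0 + q1 * x s + q2 * y s + A * x s ^ 2 + 2 * B * (x s * y s) + C * y s ^ 2 = 0)
    (s : ℝ) : (q1 + 2 * A * x s + 2 * B * y s) * c s
      + (q2 + 2 * B * x s + 2 * C * y s) * d s = 0 := by
  have h1 : HasDerivAt (fun s => q0 + q1 * x s + q2 * y s + A * x s ^ 2 + 2 * B * (x s * y s)
      + C * y s ^ 2) (q1 * c s + q2 * d s + A * (2 * x s * c s)
      + 2 * B * (c s * y s + x s * d s) + C * (2 * y s * d s)) s := by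
    have hx := h.hx s
    have hy := h.hy s
    have e1 := (hx.const_mul q1).const_add q0
    have e2 := e1.add (hy.const_mul q2)
    have e3 := e2.add ((hx.pow 2).const_mul A)
    have e4 := e3.add ((hx.mul hy).const_mul (2 * B))
    have e5 := e4.add ((hy.pow 2).const_mul C)
    exact e5.congr_deriv (by norm_num)
  have h2 : (fun s => q0 + q1 * x s + q2 * y s + A * x s ^ 2 + 2 * B * (x s * y s)
      + C * y s ^ 2) = fun _ => (0 : ℝ) := funext hq
  rw [h2] at h1
  have h3 := h1.unique (hasDerivAt_const s (0 : ℝ))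
  linarith

/-- No isotropic direction. -/
theorem Curve.iso {x y c d : ℝ → ℝ} {L : ℝ} (h : Curve x y c d L) {q0 q1 q2 A B C : ℝ}
    (hne : ¬(q0 = 0 ∧ q1 = 0 ∧ q2 = 0 ∧ A = 0 ∧ B = 0 ∧ C = 0))
    (hq : ∀ s, q0 + q1 * x s + q2 * y s + A * x s ^ 2 + 2 * B * (x s * y s) + C * y s ^ 2 = 0)
    (u v : ℝ) (huv : A * u ^ 2 + 2 * B * (u * v) + C * v ^ 2 = 0) : u = 0 ∧ v = 0 := by
  by_contra hcon
  have hdq := h.deriv_conic hq
  obtain ⟨s, -, hs⟩ := h.exists_max (-v) u
  -- the tangent direction at s is parallel to (u, v)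
  have hN : 0 < u ^ 2 + v ^ 2 := by
    rcases eq_or_ne u 0 with h4 | h4
    · rcases eq_or_ne v 0 with h5 | h5
      · exact absurd ⟨h4, h5⟩ hcon
      · positivity
    · positivity
  have hA : A * c s ^ 2 + 2 * B * (c s * d s) + C * d s ^ 2 = 0 := by
    have k : (u ^ 2 + v ^ 2) * (A * c s ^ 2 + 2 * B * (c s * d s) + C * d s ^ 2) = 0 := by
      -- v c = u d
      have k0 : v * c s = u * d s := by linarith
      have k1 : (u ^ 2 + v ^ 2) * c s ^ 2 = u ^ 2 := by
        have := h.unit s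
        linear_combination (u ^ 2) * this + (v * c s + u * d s) * k0
      have k2 : (u ^ 2 + v ^ 2) * d s ^ 2 = v ^ 2 := by
        have := h.unit s
        linear_combination (v ^ 2) * this - (v * c s + u * d s) * k0
      have k3 : (u ^ 2 + v ^ 2) * (c s * d s) = u * v := by
        have := h.unit s
        linear_combination (u * v) * this + (v * d s - u * c s) * k0
      linear_combination A * k1 + 2 * B * k3 + C * k2 + huv
    exact (mul_eq_zero.mp k).resolve_left hN.ne'
  obtain ⟨β0, hβ0⟩ : ∃ b : ℝ, b = -(q1 + 2 * A * x s + 2 * B * y s) * d s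
    + (q2 + 2 * B * x s + 2 * C * y s) * c s := ⟨_, rfl⟩
  obtain ⟨β1, hβ1⟩ : ∃ b : ℝ, b = 2 * (-A * c s * d s + B * (c s ^ 2 - d s ^ 2)
    + C * c s * d s) := ⟨_, rfl⟩
  obtain ⟨β2, hβ2⟩ : ∃ b : ℝ, b = A * d s ^ 2 - 2 * B * (c s * d s) + C * c s ^ 2 := ⟨_, rfl⟩
  have hfac : ∀ l m : ℝ, q0 + q1 * (x s + l * c s - m * d s) + q2 * (y s + l * d s + m * c s)
      + A * (x s + l * c s - m * d s) ^ 2
      + 2 * B * ((x s + l * c s - m * d s) * (y s + l * d s + m * c s))
      + C * (y s + l * d s + m * c s) ^ 2 = m * (β0 + β1 * l + β2 * m) := by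
    intro l m
    rw [hβ0, hβ1, hβ2]
    linear_combination hq s + l * hdq s + l ^ 2 * hA
  have hun := h.unit s
  have hpt : ∀ t, s < t → t < s + L →
      (β0 - (β1 * c s - β2 * d s) * x s - (β1 * d s + β2 * c s) * y s)
        + (β1 * c s - β2 * d s) * x t + (β1 * d s + β2 * c s) * y t = 0 := by
    intro t h1 h2
    have hm := h.left s t h1 h2
    have hf := hfac (c s * (x t - x s) + d s * (y t - y s))
      (c s * (y t - y s) - d s * (x t - x s))
    have e1 : x s + (c s * (x t - x s) + d s * (y t - y s)) * c s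
        - (c s * (y t - y s) - d s * (x t - x s)) * d s = x t := by
      linear_combination (x t - x s) * hun
    have e2 : y s + (c s * (x t - x s) + d s * (y t - y s)) * d s
        + (c s * (y t - y s) - d s * (x t - x s)) * c s = y t := by
      linear_combination (y t - y s) * hun
    rw [e1, e2, hq t] at hf
    have := (mul_eq_zero.mp hf.symm).resolve_left hm.ne'
    linear_combination this
  have hL := h.pos
  obtain ⟨z0, z1, z2⟩ := h.affine_zero (r := s + L / 4) (s := s + L / 2) (t := s + 3 * L / 4)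
    (by linarith) (by linarith) (by linarith) (hpt _ (by linarith) (by linarith))
    (hpt _ (by linarith) (by linarith)) (hpt _ (by linarith) (by linarith))
  have y1 : β1 = 0 := by linear_combination (c s) * z1 + (d s) * z2 - β1 * hun
  have y2 : β2 = 0 := by linear_combination (-(d s)) * z1 + (c s) * z2 - β2 * hun
  have y0 : β0 = 0 := by rw [z1, z2] at z0; linarith
  have hzero : ∀ X Y : ℝ, q0 + q1 * X + q2 * Y + A * X ^ 2 + 2 * B * (X * Y) + C * Y ^ 2
      = 0 := by
    intro X Y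
    have hf := hfac (c s * (X - x s) + d s * (Y - y s)) (c s * (Y - y s) - d s * (X - x s))
    have e1 : x s + (c s * (X - x s) + d s * (Y - y s)) * c s
        - (c s * (Y - y s) - d s * (X - x s)) * d s = X := by
      linear_combination (X - x s) * hun
    have e2 : y s + (c s * (X - x s) + d s * (Y - y s)) * d s
        + (c s * (Y - y s) - d s * (X - x s)) * c s = Y := by
      linear_combination (Y - y s) * hun
    rw [e1, e2, y0, y1, y2] at hf
    linarith
  apply hne
  have a0 := hzero 0 0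
  have a1 := hzero 1 0
  have a2 := hzero (-1) 0
  have a3 := hzero 0 1
  have a4 := hzero 0 (-1)
  have a5 := hzero 1 1
  refine ⟨by linarith, by linarith, by linarith, by linarith, by linarith, by linarith⟩

theorem disc_pos {A B C : ℝ}
    (hiso : ∀ u v : ℝ, A * u ^ 2 + 2 * B * (u * v) + C * v ^ 2 = 0 → u = 0 ∧ v = 0) :
    0 < A * C - B ^ 2 := by
  by_contra hcon
  have hD : 0 ≤ B ^ 2 - A * C := by linarith
  rcases eq_or_ne A 0 with hA | hA
  · have := hiso 1 0 (by rw [hA]; ring)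
    exact one_ne_zero this.1
  · have hs := Real.mul_self_sqrt hD
    have := hiso (-B + Real.sqrt (B ^ 2 - A * C)) A (by linear_combination A * hs)
    exact hA this.2

theorem form_zero {A B C : ℝ} (hdisc : 0 < A * C - B ^ 2) (hA0 : A ≠ 0) (X Y : ℝ)
    (hXY : A * (A * X ^ 2 + 2 * B * (X * Y) + C * Y ^ 2) ≤ 0) : X = 0 ∧ Y = 0 := by
  have hpd : A * (A * X ^ 2 + 2 * B * (X * Y) + C * Y ^ 2)
      = (A * X + B * Y) ^ 2 + (A * C - B ^ 2) * Y ^ 2 := by ring
  rw [hpd] at hXY
  have hY : Y = 0 := by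
    by_contra hY
    have : 0 < (A * C - B ^ 2) * Y ^ 2 := by positivity
    linarith [sq_nonneg (A * X + B * Y)]
  subst hY
  have h1 : (A * X) ^ 2 ≤ 0 := by
    have : (A * X + B * 0) ^ 2 + (A * C - B ^ 2) * (0 : ℝ) ^ 2 = (A * X) ^ 2 := by ring
    linarith
  have h2 : A * X = 0 := by
    have := sq_nonneg (A * X)
    exact pow_eq_zero_iff (two_ne_zero) |>.mp (le_antisymm h1 this)
  exact ⟨(mul_eq_zero.mp h2).resolve_left hA0, rfl⟩

theorem Curve.not_const {x y c d : ℝ → ℝ} {L : ℝ} (h : Curve x y c d L) (a b : ℝ) :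
    ¬ ∀ s, x s = a ∧ y s = b := by
  intro hab
  have := h.left 0 (L / 2) (by linarith [h.pos]) (by linarith [h.pos])
  rw [(hab 0).1, (hab 0).2, (hab (L / 2)).1, (hab (L / 2)).2] at this
  simp at this

theorem parallel {u v u' v' c d : ℝ} (hun : c ^ 2 + d ^ 2 = 1) (h : u * c + v * d = 0)
    (h' : u' * c + v' * d = 0) : u * v' - v * u' = 0 := by
  linear_combination (-(u * v' - v * u')) * hun + (c * v' - d * u') * h - (c * v - d * u) * h'

/-- Every point of the centred ellipse is on the curve. -/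
theorem Curve.onto {x y c d : ℝ → ℝ} {L : ℝ} (h : Curve x y c d L) {x0 y0 A B C ρ : ℝ}
    (hdisc : 0 < A * C - B ^ 2) (hA0 : A ≠ 0)
    (hcen : ∀ s, A * (x s - x0) ^ 2 + 2 * B * ((x s - x0) * (y s - y0))
      + C * (y s - y0) ^ 2 = ρ)
    (hgs : ∀ s, (A * (x s - x0) + B * (y s - y0)) * c s
      + (B * (x s - x0) + C * (y s - y0)) * d s = 0) (X Y : ℝ)
    (hXY : A * X ^ 2 + 2 * B * (X * Y) + C * Y ^ 2 = ρ) :
    ∃ s, x s - x0 = X ∧ y s - y0 = Y := by
  obtain ⟨u, hu⟩ : ∃ u, u = A * X + B * Y := ⟨_, rfl⟩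
  obtain ⟨v, hv⟩ : ∃ u, u = B * X + C * Y := ⟨_, rfl⟩
  obtain ⟨s, hmax, hs⟩ := h.exists_max (A * u) (A * v)
  have hs' : u * c s + v * d s = 0 := by
    have : A * (u * c s + v * d s) = 0 := by linear_combination hs
    exact (mul_eq_zero.mp this).resolve_left hA0
  have hpar0 := parallel (h.unit s) hs' (hgs s)
  have hpar : X * (y s - y0) - Y * (x s - x0) = 0 := by
    have : (A * C - B ^ 2) * (X * (y s - y0) - Y * (x s - x0)) = 0 := by
      rw [hu, hv] at hpar0
      linear_combination hpar0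
    exact (mul_eq_zero.mp this).resolve_left hdisc.ne'
  obtain ⟨b, hb⟩ : ∃ b, b = u * (x s - x0) + v * (y s - y0) := ⟨_, rfl⟩
  have hb2 : (b - ρ) * (b + ρ) = 0 := by
    have h1 : ρ * ρ - b ^ 2 = (A * C - B ^ 2) * (X * (y s - y0) - Y * (x s - x0)) ^ 2 := by
      have h2 : ρ * ρ = (A * X ^ 2 + 2 * B * (X * Y) + C * Y ^ 2)
        * (A * (x s - x0) ^ 2 + 2 * B * ((x s - x0) * (y s - y0))
        + C * (y s - y0) ^ 2) := by rw [hXY, hcen s]
      rw [h2, hb, hu, hv]; ring
    rw [hpar] at h1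
    linear_combination -h1
  rcases mul_eq_zero.mp hb2 with hb3 | hb3
  · -- b = ρ: the point is γ s
    have e : A * (x s - x0 - X) ^ 2 + 2 * B * ((x s - x0 - X) * (y s - y0 - Y))
        + C * (y s - y0 - Y) ^ 2 = 0 := by
      rw [hu, hv] at hb
      linear_combination hXY + hcen s - 2 * hb3 + 2 * hb
    have := form_zero hdisc hA0 (x s - x0 - X) (y s - y0 - Y) (by rw [e]; simp)
    exact ⟨s, by linarith [this.1], by linarith [this.2]⟩
  · -- b = -ρ: the curve would be constant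
    exfalso
    apply h.not_const (x0 - X) (y0 - Y)
    intro t
    have hm := hmax t
    have e : A * (x t - x0 + X) ^ 2
        + 2 * B * ((x t - x0 + X) * (y t - y0 + Y))
        + C * (y t - y0 + Y) ^ 2
        = 2 * ρ + 2 * (u * (x t - x0) + v * (y t - y0)) := by
      rw [hu, hv]
      linear_combination hXY + hcen t
    have hle : A * (2 * ρ + 2 * (u * (x t - x0) + v * (y t - y0))) ≤ 0 := by
      have e1 : A * (2 * ρ + 2 * (u * (x t - x0) + v * (y t - y0)))
          = 2 * (A * ρ) + 2 * (A * u * x t + A * v * y t) - 2 * (A * (u * x0 + v * y0)) := by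
        ring
      have e2 : 2 * (A * ρ) + 2 * (A * u * x s + A * v * y s) - 2 * (A * (u * x0 + v * y0))
          = 0 := by
        linear_combination 2 * A * hb3 - 2 * A * hb
      rw [e1]
      linarith
    have := form_zero hdisc hA0 (x t - x0 + X) (y t - y0 + Y) (by rw [e]; exact hle)
    exact ⟨by linarith [this.1], by linarith [this.2]⟩

theorem Curve.conic {x y c d : ℝ → ℝ} {L : ℝ} (h : Curve x y c d L) (q0 q1 q2 A B C : ℝ)
    (hne : ¬(q0 = 0 ∧ q1 = 0 ∧ q2 = 0 ∧ A = 0 ∧ B = 0 ∧ C = 0))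
    (hq : ∀ s, q0 + q1 * x s + q2 * y s + A * x s ^ 2 + 2 * B * (x s * y s) + C * y s ^ 2 = 0) :
    ∃ x0 y0 A' B' C' : ℝ, 0 < A' ∧ 0 < A' * C' - B' ^ 2 ∧
      ∀ X Y, A' * (X - x0) ^ 2 + 2 * B' * ((X - x0) * (Y - y0)) + C' * (Y - y0) ^ 2 = 1 ↔
        ∃ s, x s = X ∧ y s = Y := by
  have hdq := h.deriv_conic hq
  have hdisc : 0 < A * C - B ^ 2 := disc_pos (h.iso hne hq)
  have hA0 : A ≠ 0 := by
    intro hA
    rw [hA] at hdisc
    have := sq_nonneg B
    linarith
  -- centre
  obtain ⟨Δ, hΔ⟩ : ∃ D, D = A * C - B ^ 2 := ⟨_, rfl⟩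
  have hΔ0 : Δ ≠ 0 := by rw [hΔ]; exact hdisc.ne'
  obtain ⟨x0, hx0⟩ : ∃ z, z = (B * q2 - C * q1) / (2 * Δ) := ⟨_, rfl⟩
  obtain ⟨y0, hy0⟩ : ∃ z, z = (B * q1 - A * q2) / (2 * Δ) := ⟨_, rfl⟩
  have c1 : q1 + 2 * A * x0 + 2 * B * y0 = 0 := by
    rw [hx0, hy0]
    field_simp
    rw [hΔ]
    ring
  have c2 : q2 + 2 * B * x0 + 2 * C * y0 = 0 := by
    rw [hx0, hy0]
    field_simp
    rw [hΔ]
    ring
  obtain ⟨ρ, hρ⟩ : ∃ z, z = -(q0 + q1 * x0 + q2 * y0 + A * x0 ^ 2 + 2 * B * (x0 * y0)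
    + C * y0 ^ 2) := ⟨_, rfl⟩
  have hcen : ∀ s, A * (x s - x0) ^ 2 + 2 * B * ((x s - x0) * (y s - y0))
      + C * (y s - y0) ^ 2 = ρ := by
    intro s
    rw [hρ]
    linear_combination hq s - (x s - x0) * c1 - (y s - y0) * c2
  have hgs : ∀ s, (A * (x s - x0) + B * (y s - y0)) * c s
      + (B * (x s - x0) + C * (y s - y0)) * d s = 0 := by
    intro s
    have := hdq s
    linear_combination (1 / 2) * this - (1 / 2) * c s * c1 - (1 / 2) * d s * c2
  have hΔp : 0 < Δ := by rw [hΔ]; exact hdisc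
  have hρpos : 0 < A * ρ := by
    by_contra hcon
    apply h.not_const x0 y0
    intro s
    have := form_zero hdisc hA0 (x s - x0) (y s - y0) (by rw [hcen s]; linarith)
    exact ⟨by linarith [this.1], by linarith [this.2]⟩
  have hρ0 : ρ ≠ 0 := by
    intro h0; rw [h0] at hρpos; simp at hρpos
  refine ⟨x0, y0, A / ρ, B / ρ, C / ρ, ?_, ?_, ?_⟩
  · have : A / ρ = (A * ρ) / ρ ^ 2 := by field_simp
    rw [this]; positivity
  · have : A / ρ * (C / ρ) - (B / ρ) ^ 2 = Δ / ρ ^ 2 := by rw [hΔ]; field_simp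
    rw [this]; positivity
  · intro X Y
    have hiff : A / ρ * (X - x0) ^ 2 + 2 * (B / ρ) * ((X - x0) * (Y - y0))
        + C / ρ * (Y - y0) ^ 2 = 1 ↔ A * (X - x0) ^ 2 + 2 * B * ((X - x0) * (Y - y0))
        + C * (Y - y0) ^ 2 = ρ := by
      have : A / ρ * (X - x0) ^ 2 + 2 * (B / ρ) * ((X - x0) * (Y - y0))
        + C / ρ * (Y - y0) ^ 2 = (A * (X - x0) ^ 2 + 2 * B * ((X - x0) * (Y - y0))
        + C * (Y - y0) ^ 2) / ρ := by ring
      rw [this, div_eq_one_iff_eq hρ0]
    rw [hiff]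
    constructor
    · intro hXY
      obtain ⟨s, h1, h2⟩ := h.onto hdisc hA0 hcen hgs (X - x0) (Y - y0) hXY
      exact ⟨s, by linarith, by linarith⟩
    · rintro ⟨s, rfl, rfl⟩
      exact hcen s

end Vale.Agent.P097
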