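import Vale.Agent.P097.Conv
import Vale.Agent.P097.Chord

/-!
P097.  Joachimsthal's integral of an ellipse is continuous, and gives exact invariance along
arbitrarily short chords.
-/

namespace Vale.Agent.P097

open Complex Set

/-- At every boundary point `s`, and along some sequence of chords from `γ s` to `γ t` with
`t → s+`, the function `F (s, δ) = g s * sin δ` is invariant under the billiard map up to
`o((t - s)^4)`. -/
def FourthOrder (γ : ℝ → ℂ) (L : ℝ) (g : ℝ → ℝ) : Prop :=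
  ∀ s ε : ℝ, 0 < ε → ∀ e : ℝ, 0 < e → ∃ δ t δ' : ℝ, t < s + e ∧ Maps γ L s δ t δ' ∧
    |g t * Real.sin δ' - g s * Real.sin δ| ≤ ε * (t - s) ^ 4

theorem joachimsthal_cont (γ : ℝ → ℂ) (L : ℝ) (hT : Table γ L) (hE : IsEllipse (range γ)) :
    ∃ b : ℝ → ℝ, Continuous b ∧ (∀ s, b s ≠ 0) ∧
      ∀ s δ t δ', Maps γ L s δ t δ' → b s * Real.sin δ = b t * Real.sin δ' := by
  obtain ⟨z₀, A, B, C, hA, hdisc, hS⟩ := hE
  have hC := hT.curve
  obtain ⟨x, hx⟩ : ∃ x : ℝ → ℝ, x = fun s => (γ s).re := ⟨_, rfl⟩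
  obtain ⟨y, hy⟩ : ∃ x : ℝ → ℝ, x = fun s => (γ s).im := ⟨_, rfl⟩
  obtain ⟨c, hc⟩ : ∃ x : ℝ → ℝ, x = fun s => (deriv γ s).re := ⟨_, rfl⟩
  obtain ⟨d, hd⟩ : ∃ x : ℝ → ℝ, x = fun s => (deriv γ s).im := ⟨_, rfl⟩
  rw [← hx, ← hy, ← hc, ← hd] at hC
  have cx : Continuous x := continuous_iff_continuousAt.mpr fun s => (hC.hx s).continuousAt
  have cy : Continuous y := continuous_iff_continuousAt.mpr fun s => (hC.hy s).continuousAt
  have cc : Continuous c := by rw [hc]; exact Complex.continuous_re.comp hT.cont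
  have cd : Continuous d := by rw [hd]; exact Complex.continuous_im.comp hT.cont
  have hcen : ∀ s, A * (x s - z₀.re) ^ 2 + 2 * B * ((x s - z₀.re) * (y s - z₀.im))
      + C * (y s - z₀.im) ^ 2 = 1 := by
    intro s
    have : γ s ∈ range γ := ⟨s, rfl⟩
    rw [hS] at this
    have h2 : A * (γ s - z₀).re ^ 2 + 2 * B * ((γ s - z₀).re * (γ s - z₀).im)
      + C * (γ s - z₀).im ^ 2 = 1 := this
    rw [sub_re, sub_im] at h2
    rw [hx, hy]
    exact h2
  have hq : ∀ s, (A * z₀.re ^ 2 + 2 * B * (z₀.re * z₀.im) + C * z₀.im ^ 2 - 1)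
      + (-(2 * A * z₀.re + 2 * B * z₀.im)) * x s + (-(2 * B * z₀.re + 2 * C * z₀.im)) * y s
      + A * x s ^ 2 + 2 * B * (x s * y s) + C * y s ^ 2 = 0 := by
    intro s
    linear_combination hcen s
  have hdq := hC.deriv_conic hq
  obtain ⟨n1, hn1⟩ : ∃ n : ℝ → ℝ, n = fun s => A * (x s - z₀.re) + B * (y s - z₀.im) := ⟨_, rfl⟩
  obtain ⟨n2, hn2⟩ : ∃ n : ℝ → ℝ, n = fun s => B * (x s - z₀.re) + C * (y s - z₀.im) := ⟨_, rfl⟩
  have hort : ∀ s, n1 s * c s + n2 s * d s = 0 := by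
    intro s
    rw [hn1, hn2]
    linear_combination (1 / 2) * hdq s
  have hun := hC.unit
  obtain ⟨b, hb⟩ : ∃ n : ℝ → ℝ, n = fun s => c s * n2 s - d s * n1 s := ⟨_, rfl⟩
  have e1 : ∀ s, n1 s = -(b s * d s) := by
    intro s
    rw [hb]
    linear_combination (-(n1 s)) * hun s + c s * hort s
  have e2 : ∀ s, n2 s = b s * c s := by
    intro s
    rw [hb]
    linear_combination (-(n2 s)) * hun s + d s * hort s
  refine ⟨b, ?_, fun s hs => ?_, fun s δ t δ' hm => ?_⟩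
  · rw [hb, hn1, hn2]
    fun_prop
  · have f1 : n1 s = 0 := by rw [e1 s, hs]; ring
    have f2 : n2 s = 0 := by rw [e2 s, hs]; ring
    have f3 : A * (x s - z₀.re) ^ 2 + 2 * B * ((x s - z₀.re) * (y s - z₀.im))
      + C * (y s - z₀.im) ^ 2 = (x s - z₀.re) * n1 s + (y s - z₀.im) * n2 s := by
      rw [hn1, hn2]; ring
    rw [hcen s, f1, f2] at f3
    norm_num at f3
  · obtain ⟨r, hr, k1, k2⟩ := hm.sines (hT.unit' s) (hT.unit' t)
    have g1 : c s * (y t - y s) - d s * (x t - x s) = r * Real.sin δ := by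
      rw [hc, hd, hx, hy]; exact k1
    have g2 : c t * (y t - y s) - d t * (x t - x s) = -(r * Real.sin δ') := by
      rw [hc, hd, hx, hy]; exact k2
    have g3 : (n1 s + n1 t) * (x t - x s) + (n2 s + n2 t) * (y t - y s) = 0 := by
      rw [hn1, hn2]
      linear_combination hcen t - hcen s
    rw [e1 s, e1 t, e2 s, e2 t] at g3
    have g4 : r * (b s * Real.sin δ - b t * Real.sin δ') = 0 := by
      linear_combination g3 - b s * g1 - b t * g2
    have := (mul_eq_zero.mp g4).resolve_left hr.ne'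
    linarith

theorem exists_fourth (γ : ℝ → ℂ) (L : ℝ) (hT : Table γ L) (hE : IsEllipse (range γ)) :
    ∃ g : ℝ → ℝ, Continuous g ∧ (∃ s, g s ≠ 0) ∧ FourthOrder γ L g := by
  obtain ⟨b, hb, hb0, hinv⟩ := joachimsthal_cont γ L hT hE
  refine ⟨b, hb, ⟨0, hb0 0⟩, fun s ε hε e he => ?_⟩
  obtain ⟨δ0, h0, hch⟩ := hT.chord s e he
  obtain ⟨t, δ', h1, h2, hM⟩ := hch (δ0 / 2) (by linarith) (by linarith)
  refine ⟨δ0 / 2, t, δ', h2, hM, ?_⟩
  rw [hinv s _ t δ' hM, sub_self, abs_zero]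
  have : 0 < t - s := by linarith
  positivity

end Vale.Agent.P097
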