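import Mathlib

/-!
P097.  Strictly convex billiard tables, the billiard map and ellipses.
-/

namespace Vale.Agent.P097

open Complex Set

/-- `γ` is the counterclockwise arclength parametrization, of period `L`, of the boundary of a
strictly convex table with `C¹` boundary: `γ` is `C¹` with unit speed and period `L`, it is
injective on a period, and every other boundary point lies strictly to the left of the tangent
line at `γ s`. -/
structure Table (γ : ℝ → ℂ) (L : ℝ) : Prop where
  pos : 0 < L
  smooth : ContDiff ℝ 1 γ
  unit : ∀ s, ‖deriv γ s‖ = 1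
  periodic : ∀ s, γ (s + L) = γ s
  simple : ∀ s t, s < t → t < s + L → γ s ≠ γ t
  left : ∀ s t, γ t ≠ γ s → 0 < ((starRingEnd ℂ) (deriv γ s) * (γ t - γ s)).im

/-- The billiard map `T (s, δ) = (t, δ')`, lifted to the line in the first variable: the ray from
`γ s` whose direction makes the angle `δ` with the positive tangent hits the boundary again in
`γ t`; there its direction makes the angle `-δ'` with the positive tangent, and the reflected
direction makes the angle `δ'`. -/
def Maps (γ : ℝ → ℂ) (L s δ t δ' : ℝ) : Prop :=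
  s < t ∧ t < s + L ∧ 0 < δ ∧ δ < Real.pi ∧ 0 < δ' ∧ δ' < Real.pi ∧
    ∃ r : ℝ, 0 < r ∧ γ t - γ s = (r : ℂ) * exp ((δ : ℂ) * I) * deriv γ s ∧
      γ t - γ s = (r : ℂ) * exp (-((δ' : ℂ) * I)) * deriv γ t

/-- `S` is an ellipse (circles included): a level set of a positive definite quadratic form around
some centre. -/
def IsEllipse (S : Set ℂ) : Prop :=
  ∃ (z₀ : ℂ) (A B C : ℝ), 0 < A ∧ 0 < A * C - B ^ 2 ∧
    S = {z : ℂ | A * (z - z₀).re ^ 2 + 2 * B * ((z - z₀).re * (z - z₀).im)
      + C * (z - z₀).im ^ 2 = 1}

end Vale.Agent.P097
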