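import Vale.Agent.P097.Aff

/-!
P097.  The affine frame of a smooth curve of positive curvature.
-/

namespace Vale.Agent.P097

open scoped ContDiff

/-- the scaled derivative -/
noncomputable def Dd (ph f : ℝ → ℝ) : ℝ → ℝ := fun t => deriv f t / ph t

theorem Dd_smooth {ph f : ℝ → ℝ} (hph : ContDiff ℝ ∞ ph) (hpos : ∀ t, 0 < ph t)
    (hf : ContDiff ℝ ∞ f) : ContDiff ℝ ∞ (Dd ph f) :=
  (contDiff_infty_iff_deriv.mp hf).2.div hph (fun t => (hpos t).ne')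

theorem Dd_has {ph f : ℝ → ℝ} (hpos : ∀ t, 0 < ph t)
    (hf : ContDiff ℝ ∞ f) (t : ℝ) : HasDerivAt f (ph t * Dd ph f t) t := by
  have h1 : HasDerivAt f (deriv f t) t :=
    ((contDiff_infty_iff_deriv.mp hf).1 t).hasDerivAt
  have h2 : ph t * Dd ph f t = deriv f t := by
    unfold Dd
    field_simp [(hpos t).ne']
  rw [h2]; exact h1

theorem exists_affine {x y c d : ℝ → ℝ} (hx : ∀ s, HasDerivAt x (c s) s)
    (hy : ∀ s, HasDerivAt y (d s) s) (hc : ContDiff ℝ ∞ c) (hd : ContDiff ℝ ∞ d)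
    (hκ : ∀ s, 0 < c s * deriv d s - d s * deriv c s) :
    ∃ ph m Y1 Y2 : ℝ → ℝ, ContDiff ℝ ∞ ph ∧ ContDiff ℝ ∞ m ∧
      Affine ph x y (fun s => c s / ph s) (fun s => d s / ph s) Y1 Y2 m := by
  obtain ⟨ph, hph⟩ : ∃ ph : ℝ → ℝ,
    ph = fun s => (c s * deriv d s - d s * deriv c s) ^ ((1 : ℝ) / 3) := ⟨_, rfl⟩
  have hc' := (contDiff_infty_iff_deriv.mp hc).2
  have hd' := (contDiff_infty_iff_deriv.mp hd).2
  have sph : ContDiff ℝ ∞ ph := by
    rw [hph]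
    exact ((hc.mul hd').sub (hd.mul hc')).rpow_const_of_ne (fun s => (hκ s).ne')
  have pph : ∀ s, 0 < ph s := by
    intro s
    rw [hph]
    exact Real.rpow_pos_of_pos (hκ s) _
  have cub : ∀ s, ph s ^ 3 = c s * deriv d s - d s * deriv c s := by
    intro s
    rw [hph]
    simp only
    rw [← Real.rpow_natCast, ← Real.rpow_mul (hκ s).le]
    norm_num
  obtain ⟨X1, hX1⟩ : ∃ X : ℝ → ℝ, X = fun s => c s / ph s := ⟨_, rfl⟩
  obtain ⟨X2, hX2⟩ : ∃ X : ℝ → ℝ, X = fun s => d s / ph s := ⟨_, rfl⟩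
  have sX1 : ContDiff ℝ ∞ X1 := by rw [hX1]; exact hc.div sph (fun s => (pph s).ne')
  have sX2 : ContDiff ℝ ∞ X2 := by rw [hX2]; exact hd.div sph (fun s => (pph s).ne')
  have sY1 := Dd_smooth sph pph sX1
  have sY2 := Dd_smooth sph pph sX2
  have sZ1 := Dd_smooth sph pph sY1
  have sZ2 := Dd_smooth sph pph sY2
  have det : ∀ s, X1 s * Dd ph X2 s - X2 s * Dd ph X1 s = 1 := by
    intro s
    have hphs := (pph s).ne'
    have dph : HasDerivAt ph (deriv ph s) s := ((contDiff_infty_iff_deriv.mp sph).1 s).hasDerivAt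
    have dc : HasDerivAt c (deriv c s) s := ((contDiff_infty_iff_deriv.mp hc).1 s).hasDerivAt
    have dd : HasDerivAt d (deriv d s) s := ((contDiff_infty_iff_deriv.mp hd).1 s).hasDerivAt
    have e1 : deriv X1 s = (deriv c s * ph s - c s * deriv ph s) / ph s ^ 2 := by
      rw [hX1]; exact (dc.div dph hphs).deriv
    have e2 : deriv X2 s = (deriv d s * ph s - d s * deriv ph s) / ph s ^ 2 := by
      rw [hX2]; exact (dd.div dph hphs).deriv
    have e3 : X1 s * Dd ph X2 s - X2 s * Dd ph X1 s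
        = (c s * deriv d s - d s * deriv c s) / ph s ^ 3 := by
      unfold Dd
      rw [e1, e2, hX1, hX2]
      field_simp
      ring
    rw [e3, ← cub s, div_self (pow_ne_zero 3 hphs)]
  obtain ⟨Y1, hY1⟩ : ∃ X : ℝ → ℝ, X = Dd ph X1 := ⟨_, rfl⟩
  obtain ⟨Y2, hY2⟩ : ∃ X : ℝ → ℝ, X = Dd ph X2 := ⟨_, rfl⟩
  rw [← hY1] at sY1 sZ1 det
  rw [← hY2] at sY2 sZ2 det
  have dX1 : ∀ s, HasDerivAt X1 (ph s * Y1 s) s := by rw [hY1]; exact Dd_has pph sX1
  have dX2 : ∀ s, HasDerivAt X2 (ph s * Y2 s) s := by rw [hY2]; exact Dd_has pph sX2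
  have dY1 := Dd_has pph sY1
  have dY2 := Dd_has pph sY2
  obtain ⟨Z1, hZ1⟩ : ∃ X : ℝ → ℝ, X = Dd ph Y1 := ⟨_, rfl⟩
  obtain ⟨Z2, hZ2⟩ : ∃ X : ℝ → ℝ, X = Dd ph Y2 := ⟨_, rfl⟩
  rw [← hZ1] at sZ1 dY1
  rw [← hZ2] at sZ2 dY2
  have hXZ : ∀ s, X1 s * Z2 s - X2 s * Z1 s = 0 := by
    intro s
    have k := ((dX1 s).mul (dY2 s)).sub ((dX2 s).mul (dY1 s))
    have h1 : (fun s => X1 s * Y2 s - X2 s * Y1 s) = fun _ => (1 : ℝ) := funext det
    have k2 : HasDerivAt (fun s => X1 s * Y2 s - X2 s * Y1 s)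
        (ph s * (X1 s * Z2 s - X2 s * Z1 s)) s := k.congr_deriv (by ring)
    rw [h1] at k2
    have := k2.unique (hasDerivAt_const s (1 : ℝ))
    exact (mul_eq_zero.mp this).resolve_left (pph s).ne'
  refine ⟨ph, fun s => Y1 s * Z2 s - Y2 s * Z1 s, Y1, Y2, sph, (sY1.mul sZ2).sub (sY2.mul sZ1),
    ?_⟩
  rw [← hX1, ← hX2]
  refine ⟨pph, fun s => ?_, fun s => ?_, dX1, dX2, fun s => ?_, fun s => ?_, det⟩
  · refine (hx s).congr_deriv ?_
    rw [hX1]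
    field_simp [(pph s).ne']
  · refine (hy s).congr_deriv ?_
    rw [hX2]
    field_simp [(pph s).ne']
  · refine (dY1 s).congr_deriv ?_
    linear_combination (-(ph s) * Z1 s) * det s + ph s * Y1 s * hXZ s
  · refine (dY2 s).congr_deriv ?_
    linear_combination (-(ph s) * Z2 s) * det s + ph s * Y2 s * hXZ s

end Vale.Agent.P097
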