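import Vale.Agent.P097.Defs

/-!
P097.  Invariant curves of the billiard map with a given profile.
-/

namespace Vale.Agent.P097

/-- The curve `{(s, δ) : 0 < δ < π/2, sin δ = c * f s}` of the phase space is mapped by the
billiard map into the set `{(s, δ) : sin δ = c * f s}`. -/
def InvCurve (γ : ℝ → ℂ) (L : ℝ) (f : ℝ → ℝ) (c : ℝ) : Prop :=
  ∀ s δ t δ', Maps γ L s δ t δ' → δ < Real.pi / 2 → Real.sin δ = c * f s →
    Real.sin δ' = c * f t

end Vale.Agent.P097
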