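import Mathlib

/-!
P097.  The linear algebra: a local pairing relation forces a global matrix.
-/

namespace Vale.Agent.P097

open Matrix

theorem mulVec_rows (u v w z : Fin 3 → ℝ) :
    (Matrix.of ![u, v, w]) *ᵥ z = ![u ⬝ᵥ z, v ⬝ᵥ z, w ⬝ᵥ z] := by
  funext i
  fin_cases i <;> simp [Matrix.mulVec, dotProduct]

theorem eq_zero_of_rows {u v w z : Fin 3 → ℝ} (hdet : (Matrix.of ![u, v, w]).det ≠ 0)
    (hu : u ⬝ᵥ z = 0) (hv : v ⬝ᵥ z = 0) (hw : w ⬝ᵥ z = 0) : z = 0 := by
  have h : (Matrix.of ![u, v, w]) *ᵥ z = 0 := by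
    rw [mulVec_rows, hu, hv, hw]
    funext i
    fin_cases i <;> simp
  exact Matrix.eq_zero_of_mulVec_eq_zero hdet h

/-- One window. -/
theorem window (G w w' : ℝ → Fin 3 → ℝ) (e : ℝ) (he : 0 < e)
    (hrel : ∀ s t, s < t → t < s + e → w s ⬝ᵥ G t + w' t ⬝ᵥ G s = 0)
    (hind : ∀ r s t, r < s → s < t → t < r + e → (Matrix.of ![G r, G s, G t]).det ≠ 0) (c : ℝ) :
    ∃ M : Matrix (Fin 3) (Fin 3) ℝ, ∀ s, c - e / 2 < s → s ≤ c → w s = M *ᵥ G s := by
  have hd := hind (c + e / 8) (c + 2 * e / 8) (c + 3 * e / 8) (by linarith) (by linarith)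
    (by linarith)
  set P : Matrix (Fin 3) (Fin 3) ℝ :=
    Matrix.of ![G (c + e / 8), G (c + 2 * e / 8), G (c + 3 * e / 8)] with hP
  set Q : Matrix (Fin 3) (Fin 3) ℝ :=
    Matrix.of ![w' (c + e / 8), w' (c + 2 * e / 8), w' (c + 3 * e / 8)] with hQ
  refine ⟨-(P⁻¹ * Q), fun s h1 h2 => ?_⟩
  have key : P *ᵥ w s = -(Q *ᵥ G s) := by
    rw [hP, hQ, mulVec_rows, mulVec_rows]
    have r1 := hrel s (c + e / 8) (by linarith) (by linarith)
    have r2 := hrel s (c + 2 * e / 8) (by linarith) (by linarith)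
    have r3 := hrel s (c + 3 * e / 8) (by linarith) (by linarith)
    funext i
    fin_cases i
    · simp only [Fin.zero_eta, Matrix.cons_val_zero, Pi.neg_apply]
      rw [dotProduct_comm (G (c + e / 8)) (w s)]
      linarith
    · simp only [Fin.mk_one, Matrix.cons_val_one, Matrix.cons_val_zero, Pi.neg_apply]
      rw [dotProduct_comm (G (c + 2 * e / 8)) (w s)]
      linarith
    · simp only [Fin.reduceFinMk, Matrix.cons_val, Pi.neg_apply]
      rw [dotProduct_comm (G (c + 3 * e / 8)) (w s)]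
      linarith
  have hu : IsUnit P.det := isUnit_iff_ne_zero.mpr hd
  calc w s = (P⁻¹ * P) *ᵥ w s := by rw [Matrix.nonsing_inv_mul _ hu, Matrix.one_mulVec]
    _ = P⁻¹ *ᵥ (P *ᵥ w s) := by rw [Matrix.mulVec_mulVec]
    _ = P⁻¹ *ᵥ (-(Q *ᵥ G s)) := by rw [key]
    _ = (-(P⁻¹ * Q)) *ᵥ G s := by
        rw [Matrix.mulVec_neg, Matrix.mulVec_mulVec, Matrix.neg_mulVec]

theorem mat_eq {G w : ℝ → Fin 3 → ℝ} {M N : Matrix (Fin 3) (Fin 3) ℝ} {r s t : ℝ}
    (hdet : (Matrix.of ![G r, G s, G t]).det ≠ 0)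
    (hr : w r = M *ᵥ G r) (hs : w s = M *ᵥ G s) (ht : w t = M *ᵥ G t)
    (hr' : w r = N *ᵥ G r) (hs' : w s = N *ᵥ G s) (ht' : w t = N *ᵥ G t) : M = N := by
  funext i j
  have h : ∀ i, (fun j => M i j - N i j) = 0 := by
    intro i
    refine eq_zero_of_rows hdet ?_ ?_ ?_
    · have := congrFun (hr.symm.trans hr') i
      simp only [Matrix.mulVec, dotProduct, Fin.sum_univ_three] at this ⊢
      linarith
    · have := congrFun (hs.symm.trans hs') i
      simp only [Matrix.mulVec, dotProduct, Fin.sum_univ_three] at this ⊢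
      linarith
    · have := congrFun (ht.symm.trans ht') i
      simp only [Matrix.mulVec, dotProduct, Fin.sum_univ_three] at this ⊢
      linarith
  have := congrFun (h i) j
  simp only [Pi.zero_apply] at this
  linarith

/-- The global matrix. -/
theorem global (G w w' : ℝ → Fin 3 → ℝ) (e : ℝ) (he : 0 < e)
    (hrel : ∀ s t, s < t → t < s + e → w s ⬝ᵥ G t + w' t ⬝ᵥ G s = 0)
    (hind : ∀ r s t, r < s → s < t → t < r + e → (Matrix.of ![G r, G s, G t]).det ≠ 0) :
    ∃ M : Matrix (Fin 3) (Fin 3) ℝ, ∀ s, w s = M *ᵥ G s ∧ w' s = -(Mᵀ *ᵥ G s) := by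
  choose N hN using fun n : ℤ => window G w w' e he hrel hind ((n : ℝ) * (e / 4))
  have hstep : ∀ n : ℤ, N (n + 1) = N n := by
    intro n
    have hc : (((n + 1 : ℤ) : ℝ)) * (e / 4) = (n : ℝ) * (e / 4) + e / 4 := by
      push_cast; ring
    set c : ℝ := (n : ℝ) * (e / 4) with hcdef
    refine mat_eq (G := G) (w := w) (hind (c - e / 8) (c - e / 16) c (by linarith) (by linarith)
      (by linarith)) ?_ ?_ ?_ ?_ ?_ ?_
    · exact hN (n + 1) _ (by rw [hc]; linarith) (by rw [hc]; linarith)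
    · exact hN (n + 1) _ (by rw [hc]; linarith) (by rw [hc]; linarith)
    · exact hN (n + 1) _ (by rw [hc]; linarith) (by rw [hc]; linarith)
    · exact hN n _ (by linarith) (by linarith)
    · exact hN n _ (by linarith) (by linarith)
    · exact hN n _ (by linarith) (by linarith)
  have hall : ∀ n : ℤ, N n = N 0 := by
    intro n
    induction n using Int.induction_on with
    | zero => rfl
    | succ k ih => rw [hstep, ih]
    | pred k ih =>
      have := hstep (-(k : ℤ) - 1)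
      rw [sub_add_cancel] at this
      rw [← this, ih]
  have hw : ∀ s, w s = N 0 *ᵥ G s := by
    intro s
    have h4 : 0 < e / 4 := by linarith
    have h1 : s / (e / 4) ≤ (⌈s / (e / 4)⌉ : ℝ) := Int.le_ceil _
    have h2 : (⌈s / (e / 4)⌉ : ℝ) < s / (e / 4) + 1 := Int.ceil_lt_add_one _
    have h3 : s ≤ (⌈s / (e / 4)⌉ : ℝ) * (e / 4) := (div_le_iff₀ h4).mp h1
    have h5 : (⌈s / (e / 4)⌉ : ℝ) * (e / 4) < s + e / 4 := by
      have := mul_lt_mul_of_pos_right h2 h4
      have h6 : (s / (e / 4) + 1) * (e / 4) = s + e / 4 := by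
        field_simp
      linarith
    rw [← hall ⌈s / (e / 4)⌉]
    exact hN _ s (by linarith) h3
  refine ⟨N 0, fun t => ⟨hw t, ?_⟩⟩
  have hd := hind (t - 3 * e / 8) (t - 2 * e / 8) (t - e / 8) (by linarith) (by linarith)
    (by linarith)
  have hz : ∀ s, s < t → t < s + e → G s ⬝ᵥ (w' t + (N 0)ᵀ *ᵥ G t) = 0 := by
    intro s h1 h2
    have := hrel s t h1 h2
    rw [hw s] at this
    rw [dotProduct_add, dotProduct_comm (G s) (w' t)]
    have h7 : G s ⬝ᵥ ((N 0)ᵀ *ᵥ G t) = (N 0 *ᵥ G s) ⬝ᵥ G t := by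
      rw [Matrix.dotProduct_mulVec, Matrix.vecMul_transpose]
    rw [h7]
    linarith
  have h0 := eq_zero_of_rows hd (hz _ (by linarith) (by linarith)) (hz _ (by linarith)
    (by linarith)) (hz _ (by linarith) (by linarith))
  exact eq_neg_of_add_eq_zero_left h0

end Vale.Agent.P097
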