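import Vale.Agent.P097.Approx
import Vale.Agent.P097.Conv2

/-!
P097.  Approximate first integrals `a(s) cos δ + b(s) sin δ`.
-/

namespace Vale.Agent.P097

open Complex Set
open scoped ContDiff

/-- Derivatives of the unit tangent. -/
structure Tan (x y c d c1 d1 c2 d2 c3 d3 : ℝ → ℝ) : Prop where
  hx : ∀ t, HasDerivAt x (c t) t
  hy : ∀ t, HasDerivAt y (d t) t
  hc : ∀ t, HasDerivAt c (c1 t) t
  hd : ∀ t, HasDerivAt d (d1 t) t
  hc1 : ∀ t, HasDerivAt c1 (c2 t) t
  hd1 : ∀ t, HasDerivAt d1 (d2 t) t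
  hc2 : ∀ t, HasDerivAt c2 (c3 t) t
  hd2 : ∀ t, HasDerivAt d2 (d3 t) t
  unit : ∀ t, c t ^ 2 + d t ^ 2 = 1

section
variable {x y c d c1 d1 c2 d2 c3 d3 : ℝ → ℝ} (h : Tan x y c d c1 d1 c2 d2 c3 d3)
include h

theorem Tan.o1 (t : ℝ) : c t * c1 t + d t * d1 t = 0 := by
  have k : HasDerivAt (fun t => c t ^ 2 + d t ^ 2) (2 * (c t * c1 t + d t * d1 t)) t :=
    (((h.hc t).pow 2).add ((h.hd t).pow 2)).congr_deriv (by norm_num; ring)
  rw [show (fun t => c t ^ 2 + d t ^ 2) = fun _ => (1 : ℝ) from funext h.unit] at k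
  have := k.unique (hasDerivAt_const t (1 : ℝ))
  linarith

theorem Tan.o2 (t : ℝ) : c t * c2 t + d t * d2 t = -(c1 t ^ 2 + d1 t ^ 2) := by
  have k : HasDerivAt (fun t => c t * c1 t + d t * d1 t)
      (c1 t ^ 2 + d1 t ^ 2 + (c t * c2 t + d t * d2 t)) t :=
    (((h.hc t).mul (h.hc1 t)).add ((h.hd t).mul (h.hd1 t))).congr_deriv (by ring)
  rw [show (fun t => c t * c1 t + d t * d1 t) = fun _ => (0 : ℝ) from funext h.o1] at k
  have := k.unique (hasDerivAt_const t (0 : ℝ))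
  linarith

theorem Tan.o3 (t : ℝ) : c t * c3 t + d t * d3 t = -3 * (c1 t * c2 t + d1 t * d2 t) := by
  have k : HasDerivAt (fun t => (c t * c2 t + d t * d2 t) + (c1 t ^ 2 + d1 t ^ 2))
      ((c t * c3 t + d t * d3 t) + 3 * (c1 t * c2 t + d1 t * d2 t)) t :=
    ((((h.hc t).mul (h.hc2 t)).add ((h.hd t).mul (h.hd2 t))).add
      (((h.hc1 t).pow 2).add ((h.hd1 t).pow 2))).congr_deriv (by norm_num; ring)
  rw [show (fun t => (c t * c2 t + d t * d2 t) + (c1 t ^ 2 + d1 t ^ 2)) = fun _ => (0 : ℝ) from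
    funext fun t => by rw [h.o2]; ring] at k
  have := k.unique (hasDerivAt_const t (0 : ℝ))
  linarith

/-- `P t = <τ_s - τ_t, Δ>`. -/
theorem Tan.dP0 (s t : ℝ) : HasDerivAt (fun t => (c s - c t) * (x t - x s)
    + (d s - d t) * (y t - y s))
    (1 * (-(c1 t * (x t - x s) + d1 t * (y t - y s)) + (c s * c t + d s * d t) - 1)) t := by
  have k := (((h.hc t).const_sub (c s)).mul ((h.hx t).sub_const (x s))).add
    (((h.hd t).const_sub (d s)).mul ((h.hy t).sub_const (y s)))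
  exact k.congr_deriv (by linear_combination (-1 : ℝ) * h.unit t)

theorem Tan.dP1 (s t : ℝ) : HasDerivAt (fun t => -(c1 t * (x t - x s) + d1 t * (y t - y s))
    + (c s * c t + d s * d t) - 1)
    (1 * (-(c2 t * (x t - x s) + d2 t * (y t - y s)) + (c s * c1 t + d s * d1 t))) t := by
  have k := (((((h.hc1 t).mul ((h.hx t).sub_const (x s))).add
    ((h.hd1 t).mul ((h.hy t).sub_const (y s)))).neg).add
    (((h.hc t).const_mul (c s)).add ((h.hd t).const_mul (d s)))).sub_const 1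
  exact k.congr_deriv (by linear_combination (-1 : ℝ) * h.o1 t)

theorem Tan.dP2 (s t : ℝ) : HasDerivAt (fun t => -(c2 t * (x t - x s) + d2 t * (y t - y s))
    + (c s * c1 t + d s * d1 t))
    (1 * (-(c3 t * (x t - x s) + d3 t * (y t - y s)) - (c2 t * c t + d2 t * d t)
      + (c s * c2 t + d s * d2 t))) t := by
  have k := ((((h.hc2 t).mul ((h.hx t).sub_const (x s))).add
    ((h.hd2 t).mul ((h.hy t).sub_const (y s)))).neg).add
    (((h.hc1 t).const_mul (c s)).add ((h.hd1 t).const_mul (d s)))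
  exact k.congr_deriv (by ring)

theorem Tan.P4 (s : ℝ) {c4 d4 : ℝ → ℝ} (hc3 : ∀ t, HasDerivAt c3 (c4 t) t)
    (hd3 : ∀ t, HasDerivAt d3 (d4 t) t) :
    Lit (fun t => (c s - c t) * (x t - x s) + (d s - d t) * (y t - y s)
      - (c1 s * c2 s + d1 s * d2 s) / 12 * (t - s) ^ 4) s 4 := by
  have one : ContinuousAt (fun _ : ℝ => (1 : ℝ)) s := continuousAt_const
  have L3 : Lit (fun t => (-(c3 t * (x t - x s) + d3 t * (y t - y s))
      - (c2 t * c t + d2 t * d t) + (c s * c2 t + d s * d2 t))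
      - 2 * (c1 s * c2 s + d1 s * d2 s) * (t - s) ^ 1) s 1 := by
    apply lit_start
    · have k := ((((((hc3 s).mul ((h.hx s).sub_const (x s))).add
        ((hd3 s).mul ((h.hy s).sub_const (y s)))).neg).sub
        (((h.hc2 s).mul (h.hc s)).add ((h.hd2 s).mul (h.hd s)))).add
        (((h.hc2 s).const_mul (c s)).add ((h.hd2 s).const_mul (d s)))).sub
        ((((hasDerivAt_id s).sub_const s).pow 1).const_mul
          (2 * (c1 s * c2 s + d1 s * d2 s)))
      refine k.congr_deriv ?_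
      norm_num
      linear_combination (-1 : ℝ) * h.o3 s
    · ring
  have L2 := L3.up (ph := fun _ => 1) one (h.dP2 s) (by linear_combination h.o1 s)
  have L1 := L2.up (ph := fun _ => 1) one (h.dP1 s) (by linear_combination h.unit s)
  have L0 := L1.up (ph := fun _ => 1) one (h.dP0 s) (by ring)
  intro ε hε
  obtain ⟨e, he, hh⟩ := L0 ε hε
  refine ⟨e, he, fun t h1 h2 => ?_⟩
  have := hh t h1 h2
  simp only at this ⊢
  refine le_of_eq_of_le ?_ this
  congr 1
  push_cast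
  ring

end

theorem Lit.weaken {g : ℝ → ℝ} {s C : ℝ} {k : ℕ} (h : Lit (fun t => g t - C * (t - s) ^ (k + 1))
    s (k + 1)) : Lit g s k := by
  intro ε hε
  obtain ⟨d, hd, hh⟩ := h 1 one_pos
  refine ⟨min d (ε / (|C| + 1)), lt_min hd (by positivity), fun t h1 h2 => ?_⟩
  have k1 := hh t h1 (by linarith [min_le_left d (ε / (|C| + 1))])
  simp only at k1
  have hpos : 0 < t - s := by linarith
  have h3 : t - s ≤ ε / (|C| + 1) := by linarith [min_le_right d (ε / (|C| + 1))]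
  have h4 : 0 < (t - s) ^ k := pow_pos hpos k
  have e : |g t| ≤ |g t - C * (t - s) ^ (k + 1)| + |C * (t - s) ^ (k + 1)| := by
    have := abs_add_le (g t - C * (t - s) ^ (k + 1)) (C * (t - s) ^ (k + 1))
    rwa [sub_add_cancel] at this
  rw [abs_mul, abs_of_pos (pow_pos hpos (k + 1))] at e
  have e2 : |g t| ≤ (|C| + 1) * (t - s) ^ (k + 1) := by linarith
  calc |g t| ≤ (|C| + 1) * (t - s) ^ (k + 1) := e2
    _ = ((|C| + 1) * (t - s)) * (t - s) ^ k := by ring
    _ ≤ ε * (t - s) ^ k := by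
        refine mul_le_mul_of_nonneg_right ?_ h4.le
        rw [le_div_iff₀ (by positivity)] at h3
        linarith

theorem Lit.anti {g : ℝ → ℝ} {s : ℝ} {k : ℕ} (h : Lit g s (k + 1)) : Lit g s k := by
  refine Lit.weaken (C := 0) ?_
  intro ε hε
  obtain ⟨d, hd, hh⟩ := h ε hε
  refine ⟨d, hd, fun t h1 h2 => ?_⟩
  simp only [zero_mul, sub_zero]
  exact hh t h1 h2

/-- Stage 1 with an error of third order. -/
theorem Five.slope3 {ph A B G E F m m1 p : ℝ → ℝ} {s ph' : ℝ} (h : Five ph A B G E F m s)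
    (hph : HasDerivAt ph ph' s) (hG0 : G s = 0)
    (hm : ∀ t, HasDerivAt m (ph t * m1 t) t)
    (hz : ApAcc (fun t => p s * G t + p t * A t) s 3) (r : ℝ) (hr : 0 < r) (e : ℝ)
    (he : 0 < e) : ∃ t, s < t ∧ t < s + e ∧ |p t - p s| ≤ r * (t - s) := by
  -- K = G + A is o((t-s)^3)
  have d0 : ∀ t, HasDerivAt (fun t => G t + A t) (ph t * (E t + B t)) t := fun t =>
    ((h.dG t).add (h.dA t)).congr_deriv (by ring)
  have d1 : ∀ t, HasDerivAt (fun t => E t + B t) (ph t * (F t - m t * A t - 1)) t := fun t =>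
    ((h.dE t).add (h.dB t)).congr_deriv (by ring)
  have d2 : ∀ t, HasDerivAt (fun t => F t - m t * A t - 1)
      (ph t * (-(m t * E t) - m1 t * A t - m t * B t)) t := fun t =>
    (((h.dF t).sub ((hm t).mul (h.dA t))).sub_const 1).congr_deriv (by ring)
  have l1 : Lit (fun t => ph t * (F t - m t * A t - 1)) s 1 := by
    apply lit_start
    · refine (hph.mul (d2 s)).congr_deriv ?_
      rw [h.A0, h.B0, h.E0, h.F0]; ring
    · rw [h.A0, h.F0]; ring
  have l2 : Lit (fun t => E t + B t) s 2 := l1.step d1 (by simp only [h.E0, h.B0, add_zero])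
  have l3 : Lit (fun t => G t + A t) s 3 :=
    (l2.mul hph.continuousAt).step d0 (by simp only [hG0, h.A0, add_zero])
  -- A is about -(ph s)^2 (t - s)^2 / 2
  have g1 : Lit (fun t => ph t * B t + ph s ^ 2 * (t - s)) s 1 := by
    apply lit_start
    · have k := (hph.mul (h.dB s)).add (((hasDerivAt_id s).sub_const s).const_mul (ph s ^ 2))
      refine k.congr_deriv ?_
      rw [h.A0, h.B0]; ring
    · simp only [h.B0, sub_self, mul_zero, add_zero]
  have g2 : Lit (fun t => A t + ph s ^ 2 / 2 * (t - s) ^ 2) s 2 := by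
    refine g1.step (fun t => ?_) (by simp [h.A0])
    have k := (h.dA t).add ((((hasDerivAt_id t).sub_const s).pow 2).const_mul (ph s ^ 2 / 2))
    exact k.congr_deriv (by norm_num; ring)
  have hps := h.pos s
  obtain ⟨d2', hd2, hA⟩ := g2 (ph s ^ 2 / 4) (by positivity)
  obtain ⟨ε, hε⟩ : ∃ ε, ε = r * (ph s ^ 2 / 4) / (|p s| + 2) := ⟨_, rfl⟩
  have hε0 : 0 < ε := by rw [hε]; positivity
  obtain ⟨d3, hd3, hK⟩ := l3 ε hε0
  obtain ⟨t, h1, h2, h3⟩ := hz ε hε0 (min e (min d2' d3)) (lt_min he (lt_min hd2 hd3))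
  have m1' := min_le_left e (min d2' d3)
  have m2' := (min_le_right e (min d2' d3)).trans (min_le_left d2' d3)
  have m3' := (min_le_right e (min d2' d3)).trans (min_le_right d2' d3)
  refine ⟨t, h1, by linarith, ?_⟩
  have a1 := (abs_le.mp (hA t h1 (by linarith))).2
  have k1 := hK t h1 (by linarith)
  have hpos : 0 < t - s := by linarith
  obtain ⟨q, hq⟩ : ∃ q, q = ph s ^ 2 / 4 * (t - s) ^ 2 := ⟨_, rfl⟩
  have hqpos : 0 < q := by rw [hq]; positivity
  have hAq : q ≤ -A t := by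
    rw [hq]
    have : ph s ^ 2 / 2 * (t - s) ^ 2 = ph s ^ 2 / 4 * (t - s) ^ 2
      + ph s ^ 2 / 4 * (t - s) ^ 2 := by ring
    linarith
  have e1 : (p t - p s) * (-A t) = p s * (G t + A t) - (p s * G t + p t * A t) := by ring
  have e2 : |p t - p s| * (-A t) ≤ |p s| * |G t + A t| + |p s * G t + p t * A t| := by
    have k : |(p t - p s) * (-A t)| ≤ |p s * (G t + A t)| + |p s * G t + p t * A t| := by
      rw [e1]; exact abs_sub _ _
    rwa [abs_mul, abs_mul, abs_of_pos (show 0 < -A t by linarith)] at k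
  have e3 : |p t - p s| * q ≤ |p t - p s| * (-A t) :=
    mul_le_mul_of_nonneg_left hAq (abs_nonneg _)
  have e4 : |p s| * |G t + A t| ≤ (|p s| + 1) * (ε * (t - s) ^ 3) :=
    mul_le_mul (by linarith) k1 (abs_nonneg _) (by positivity)
  have e6 : (|p s| + 2) * (ε * (t - s) ^ 3) = r * (t - s) * q := by
    rw [hε, hq]
    field_simp
  have e7 : |p t - p s| * q ≤ r * (t - s) * q := by
    have : (|p s| + 2) * (ε * (t - s) ^ 3)
        = (|p s| + 1) * (ε * (t - s) ^ 3) + ε * (t - s) ^ 3 := by ring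
    linarith
  exact le_of_mul_le_mul_right e7 hqpos

/-- `K = G + A` is `o((t-s)^4)`. -/
theorem Five.K4 {ph A B G E F m m1 m2 : ℝ → ℝ} {s : ℝ} (h : Five ph A B G E F m s)
    (hph : ContinuousAt ph s) (hG0 : G s = 0)
    (hm : ∀ t, HasDerivAt m (ph t * m1 t) t) (hm1 : ∀ t, HasDerivAt m1 (ph t * m2 t) t) :
    Lit (fun t => G t + A t) s 4 := by
  have d0 : ∀ t, HasDerivAt (fun t => G t + A t) (ph t * (E t + B t)) t := fun t =>
    ((h.dG t).add (h.dA t)).congr_deriv (by ring)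
  have d1 : ∀ t, HasDerivAt (fun t => E t + B t) (ph t * (F t - m t * A t - 1)) t := fun t =>
    ((h.dE t).add (h.dB t)).congr_deriv (by ring)
  have d2 : ∀ t, HasDerivAt (fun t => F t - m t * A t - 1)
      (ph t * (-(m t * E t) - m1 t * A t - m t * B t)) t := fun t =>
    (((h.dF t).sub ((hm t).mul (h.dA t))).sub_const 1).congr_deriv (by ring)
  have d3 : ∀ t, HasDerivAt (fun t => -(m t * E t) - m1 t * A t - m t * B t)
      (ph t * (-(m1 t * E t) - m t * F t - m2 t * A t - 2 * m1 t * B t + m t ^ 2 * A t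
        + m t)) t := fun t =>
    (((((hm t).mul (h.dE t)).neg).sub ((hm1 t).mul (h.dA t))).sub
      ((hm t).mul (h.dB t))).congr_deriv (by ring)
  have l1 : Lit (fun t => -(m t * E t) - m1 t * A t - m t * B t) s 1 := by
    apply lit_start
    · refine (d3 s).congr_deriv ?_
      rw [h.A0, h.B0, h.E0, h.F0]; ring
    · rw [h.A0, h.B0, h.E0]; ring
  have l2 := (l1.mul hph).step d2 (by rw [h.A0, h.F0]; ring)
  have l3 := (l2.mul hph).step d1 (by rw [h.E0, h.B0]; ring)
  exact (l3.mul hph).step d0 (by rw [hG0, h.A0]; ring)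

end Vale.Agent.P097
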