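import Vale.Agent.P097.LinJet

/-!
P097.  Approximate first integrals `a(s) cos δ + b(s) sin δ`: the coefficient `a` is constant, and
if it is not zero then the table is a disc.
-/

namespace Vale.Agent.P097

open Complex Set
open scoped ContDiff

theorem Lit.add {f g : ℝ → ℝ} {s : ℝ} {k : ℕ} (hf : Lit f s k) (hg : Lit g s k) :
    Lit (fun t => f t + g t) s k := by
  intro ε hε
  obtain ⟨d1, hd1, e1⟩ := hf (ε / 2) (by linarith)
  obtain ⟨d2, hd2, e2⟩ := hg (ε / 2) (by linarith)
  refine ⟨min d1 d2, lt_min hd1 hd2, fun t k1 k2 => ?_⟩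
  have f1 := e1 t k1 (by linarith [min_le_left d1 d2])
  have f2 := e2 t k1 (by linarith [min_le_right d1 d2])
  refine (abs_add_le _ _).trans ?_
  linarith

section
variable {x y c d c1 d1 c2 d2 c3 d3 : ℝ → ℝ} (h : Tan x y c d c1 d1 c2 d2 c3 d3)
include h

theorem Tan.N (s : ℝ) : Lit (fun t => (c t * (x t - x s) + d t * (y t - y s))
    - 1 * (t - s) ^ 1) s 1 := by
  apply lit_start
  · have k := (((h.hc s).mul ((h.hx s).sub_const (x s))).add
      ((h.hd s).mul ((h.hy s).sub_const (y s)))).sub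
      ((((hasDerivAt_id s).sub_const s).pow 1).const_mul 1)
    refine k.congr_deriv ?_
    norm_num
    linear_combination h.unit s
  · ring

theorem Tan.V (s : ℝ) : Lit (fun t => (c t * (y t - y s) - d t * (x t - x s))
    - -(c s * d1 s - d s * c1 s) / 2 * (t - s) ^ 2) s 2 := by
  have one : ContinuousAt (fun _ : ℝ => (1 : ℝ)) s := continuousAt_const
  have dV : ∀ t, HasDerivAt (fun t => c t * (y t - y s) - d t * (x t - x s))
      (1 * (c1 t * (y t - y s) - d1 t * (x t - x s))) t := fun t =>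
    (((h.hc t).mul ((h.hy t).sub_const (y s))).sub
      ((h.hd t).mul ((h.hx t).sub_const (x s)))).congr_deriv (by ring)
  have L1 : Lit (fun t => (c1 t * (y t - y s) - d1 t * (x t - x s))
      - -(c s * d1 s - d s * c1 s) * (t - s) ^ 1) s 1 := by
    apply lit_start
    · have k := (((h.hc1 s).mul ((h.hy s).sub_const (y s))).sub
        ((h.hd1 s).mul ((h.hx s).sub_const (x s)))).sub
        ((((hasDerivAt_id s).sub_const s).pow 1).const_mul (-(c s * d1 s - d s * c1 s)))
      refine k.congr_deriv ?_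
      norm_num
      ring
    · ring
  have L2 := L1.up (ph := fun _ => 1) one dV (by ring)
  intro ε hε
  obtain ⟨e, he, hh⟩ := L2 ε hε
  refine ⟨e, he, fun t h1 h2 => ?_⟩
  have := hh t h1 h2
  simp only at this ⊢
  refine le_of_eq_of_le ?_ this
  congr 1
  push_cast
  ring

theorem Tan.UV (s : ℝ) : Lit (fun t => (c s * (y t - y s) - d s * (x t - x s))
    + (c t * (y t - y s) - d t * (x t - x s))) s 2 := by
  have dUV : ∀ t, HasDerivAt (fun t => (c s * (y t - y s) - d s * (x t - x s))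
      + (c t * (y t - y s) - d t * (x t - x s)))
      ((c s * d t - d s * c t) + (c1 t * (y t - y s) - d1 t * (x t - x s))) t := fun t =>
    (((((h.hy t).sub_const (y s)).const_mul (c s)).sub
      (((h.hx t).sub_const (x s)).const_mul (d s))).add
      (((h.hc t).mul ((h.hy t).sub_const (y s))).sub
      ((h.hd t).mul ((h.hx t).sub_const (x s))))).congr_deriv (by ring)
  have L1 : Lit (fun t => (c s * d t - d s * c t)
      + (c1 t * (y t - y s) - d1 t * (x t - x s))) s 1 := by
    apply lit_start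
    · have k := (((h.hd s).const_mul (c s)).sub ((h.hc s).const_mul (d s))).add
        (((h.hc1 s).mul ((h.hy s).sub_const (y s))).sub
        ((h.hd1 s).mul ((h.hx s).sub_const (x s))))
      exact k.congr_deriv (by ring)
    · ring
  exact L1.step dUV (by ring)

theorem Tan.slope_a {a b : ℝ → ℝ} {s : ℝ} {c4 d4 : ℝ → ℝ} (hc3 : ∀ t, HasDerivAt c3 (c4 t) t)
    (hd3 : ∀ t, HasDerivAt d3 (d4 t) t) (hb : Continuous b)
    (hW : ApAcc (fun t => (a t * (c t * (x t - x s) + d t * (y t - y s))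
        - b t * (c t * (y t - y s) - d t * (x t - x s)))
      - (a s * (c s * (x t - x s) + d s * (y t - y s))
        + b s * (c s * (y t - y s) - d s * (x t - x s)))) s 5)
    (r : ℝ) (hr : 0 < r) (e : ℝ) (he : 0 < e) :
    ∃ t, s < t ∧ t < s + e ∧ |a t - a s| ≤ r * (t - s) := by
  have hP : Lit (fun t => (c s - c t) * (x t - x s) + (d s - d t) * (y t - y s)) s 2 :=
    ((h.P4 s hc3 hd3).weaken).anti
  have ha : Lit (fun t => a s * ((c s - c t) * (x t - x s) + (d s - d t) * (y t - y s))) s 2 :=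
    hP.mul (ph := fun _ => a s) continuousAt_const
  have hbUV : Lit (fun t => b s * ((c s * (y t - y s) - d s * (x t - x s))
    + (c t * (y t - y s) - d t * (x t - x s)))) s 2 :=
    (h.UV s).mul (ph := fun _ => b s) continuousAt_const
  obtain ⟨κ, hκ⟩ : ∃ κ, κ = -(c s * d1 s - d s * c1 s) / 2 := ⟨_, rfl⟩
  have hV := h.V s
  rw [← hκ] at hV
  have hbV : Lit (fun t => (b t - b s) * (c t * (y t - y s) - d t * (x t - x s))) s 2 := by
    intro ε hε
    obtain ⟨e1, he1, h1⟩ := hV 1 one_pos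
    obtain ⟨e2, he2, h2⟩ := Metric.continuousAt_iff.mp hb.continuousAt (ε / (|κ| + 1))
      (by positivity)
    refine ⟨min e1 e2, lt_min he1 he2, fun t k1 k2 => ?_⟩
    have f1 := h1 t k1 (by linarith [min_le_left e1 e2])
    have f2 := h2 (x := t) (by
      rw [Real.dist_eq, abs_of_pos (by linarith)]
      linarith [min_le_right e1 e2])
    rw [Real.dist_eq] at f2
    simp only at f1
    have hpos : 0 ≤ (t - s) ^ 2 := sq_nonneg _
    have f3 : |c t * (y t - y s) - d t * (x t - x s)| ≤ (|κ| + 1) * (t - s) ^ 2 := by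
      have := abs_add_le (c t * (y t - y s) - d t * (x t - x s) - κ * (t - s) ^ 2)
        (κ * (t - s) ^ 2)
      rw [sub_add_cancel, abs_mul, abs_of_nonneg hpos] at this
      linarith
    rw [abs_mul]
    calc |b t - b s| * |c t * (y t - y s) - d t * (x t - x s)|
        ≤ ε / (|κ| + 1) * ((|κ| + 1) * (t - s) ^ 2) :=
          mul_le_mul f2.le f3 (abs_nonneg _) (by positivity)
      _ = ε * (t - s) ^ 2 := by field_simp
  have hall := (ha.add hbV).add hbUV
  obtain ⟨e1, he1, h1⟩ := hall (r / 4) (by linarith)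
  obtain ⟨e2, he2, h2⟩ := (h.N s) (1 / 2) (by norm_num)
  obtain ⟨t, t1, t2, t3⟩ := hW (r / 4) (by linarith) (min (min e 1) (min e1 e2))
    (lt_min (lt_min he one_pos) (lt_min he1 he2))
  have m0' := (min_le_left (min e 1) (min e1 e2)).trans (min_le_left e 1)
  have m1' := (min_le_left (min e 1) (min e1 e2)).trans (min_le_right e 1)
  have m2' := (min_le_right (min e 1) (min e1 e2)).trans (min_le_left e1 e2)
  have m3' := (min_le_right (min e 1) (min e1 e2)).trans (min_le_right e1 e2)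
  refine ⟨t, t1, by linarith, ?_⟩
  have f1 := h1 t t1 (by linarith)
  have f2 := h2 t t1 (by linarith)
  simp only at f1 f2 t3
  have hpos : 0 < t - s := by linarith
  have hle1 : t - s ≤ 1 := by linarith
  obtain ⟨N, hN⟩ : ∃ N, N = c t * (x t - x s) + d t * (y t - y s) := ⟨_, rfl⟩
  rw [← hN] at f2 t3
  have hNpos : (t - s) / 2 ≤ N := by
    have := (abs_le.mp f2).1
    rw [pow_one] at this
    linarith
  obtain ⟨W, hW'⟩ : ∃ W, W = (a t * N - b t * (c t * (y t - y s) - d t * (x t - x s)))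
      - (a s * (c s * (x t - x s) + d s * (y t - y s))
        + b s * (c s * (y t - y s) - d s * (x t - x s))) := ⟨_, rfl⟩
  rw [← hW'] at t3
  obtain ⟨Z, hZ⟩ : ∃ Z, Z = a s * ((c s - c t) * (x t - x s) + (d s - d t) * (y t - y s))
      + (b t - b s) * (c t * (y t - y s) - d t * (x t - x s))
      + b s * ((c s * (y t - y s) - d s * (x t - x s))
        + (c t * (y t - y s) - d t * (x t - x s))) := ⟨_, rfl⟩
  rw [← hZ] at f1
  have e0 : (a t - a s) * N = W + Z := by rw [hW', hZ, hN]; ring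
  have g1 : |a t - a s| * N ≤ |W| + |Z| := by
    have k : |(a t - a s) * N| ≤ |W| + |Z| := by rw [e0]; exact abs_add_le _ _
    rwa [abs_mul, abs_of_pos (show 0 < N by linarith)] at k
  have g2 : r / 4 * (t - s) ^ 5 ≤ r / 4 * (t - s) ^ 2 :=
    mul_le_mul_of_nonneg_left (pow_le_pow_of_le_one hpos.le hle1 (by norm_num)) (by linarith)
  have g3 : |a t - a s| * ((t - s) / 2) ≤ |a t - a s| * N :=
    mul_le_mul_of_nonneg_left hNpos (abs_nonneg _)
  have g4 : |a t - a s| * ((t - s) / 2) ≤ r * (t - s) * ((t - s) / 2) := by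
    have : r * (t - s) * ((t - s) / 2) = r / 4 * (t - s) ^ 2 + r / 4 * (t - s) ^ 2 := by ring
    linarith
  exact le_of_mul_le_mul_right g4 (by linarith)

/-- Constant curvature gives a conic. -/
theorem Tan.circle (hκ : ∀ t, 0 < c t * d1 t - d t * c1 t)
    (hQ : ∀ t, c1 t * c2 t + d1 t * d2 t = 0) :
    ∃ q0 q1 q2 A B C : ℝ, ¬(q0 = 0 ∧ q1 = 0 ∧ q2 = 0 ∧ A = 0 ∧ B = 0 ∧ C = 0) ∧
      ∀ s, q0 + q1 * x s + q2 * y s + A * x s ^ 2 + 2 * B * (x s * y s) + C * y s ^ 2 = 0 := by
  have hkc : ∀ t, c1 t ^ 2 + d1 t ^ 2 = c1 0 ^ 2 + d1 0 ^ 2 := by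
    intro t
    have hder : ∀ t, HasDerivAt (fun t => c1 t ^ 2 + d1 t ^ 2) 0 t := fun t =>
      (((h.hc1 t).pow 2).add ((h.hd1 t).pow 2)).congr_deriv (by
        norm_num; linear_combination 2 * hQ t)
    exact is_const_of_deriv_eq_zero (fun s => (hder s).differentiableAt)
      (fun s => (hder s).deriv) t 0
  obtain ⟨k, hk⟩ : ∃ k, k = c1 0 ^ 2 + d1 0 ^ 2 := ⟨_, rfl⟩
  rw [← hk] at hkc
  have hk0 : k ≠ 0 := by
    intro h0
    have h1 := hkc 0
    rw [h0] at h1
    have h2 : c1 0 = 0 := by nlinarith [sq_nonneg (c1 0), sq_nonneg (d1 0)]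
    have h3 : d1 0 = 0 := by nlinarith [sq_nonneg (c1 0), sq_nonneg (d1 0)]
    have h4 := hκ 0
    rw [h2, h3] at h4
    simp at h4
  have hpar : ∀ t, d t * c2 t - c t * d2 t = 0 := by
    intro t
    have o1 := h.o1 t
    have hun := h.unit t
    have : (c t * d1 t - d t * c1 t) * (d t * c2 t - c t * d2 t) = 0 := by
      linear_combination (c t * c2 t + d t * d2 t) * o1 - (c t ^ 2 + d t ^ 2) * hQ t
    exact (mul_eq_zero.mp this).resolve_left (hκ t).ne'
  have hc2 : ∀ t, c2 t = -k * c t := by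
    intro t
    have o2 := h.o2 t
    rw [hkc t] at o2
    linear_combination (-(c2 t)) * h.unit t + c t * o2 + d t * hpar t
  have hd2 : ∀ t, d2 t = -k * d t := by
    intro t
    have o2 := h.o2 t
    rw [hkc t] at o2
    linear_combination (-(d2 t)) * h.unit t + d t * o2 - c t * hpar t
  have hx0 : ∀ t, k * x t + c1 t = k * x 0 + c1 0 := by
    intro t
    have hder : ∀ t, HasDerivAt (fun t => k * x t + c1 t) 0 t := fun t =>
      (((h.hx t).const_mul k).add (h.hc1 t)).congr_deriv (by rw [hc2 t]; ring)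
    exact is_const_of_deriv_eq_zero (fun s => (hder s).differentiableAt)
      (fun s => (hder s).deriv) t 0
  have hy0 : ∀ t, k * y t + d1 t = k * y 0 + d1 0 := by
    intro t
    have hder : ∀ t, HasDerivAt (fun t => k * y t + d1 t) 0 t := fun t =>
      (((h.hy t).const_mul k).add (h.hd1 t)).congr_deriv (by rw [hd2 t]; ring)
    exact is_const_of_deriv_eq_zero (fun s => (hder s).differentiableAt)
      (fun s => (hder s).deriv) t 0
  obtain ⟨X, hX⟩ : ∃ X, X = k * x 0 + c1 0 := ⟨_, rfl⟩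
  obtain ⟨Y, hY⟩ : ∃ X, X = k * y 0 + d1 0 := ⟨_, rfl⟩
  rw [← hX] at hx0
  rw [← hY] at hy0
  refine ⟨X ^ 2 + Y ^ 2 - k, -2 * k * X, -2 * k * Y, k ^ 2, 0, k ^ 2, ?_, fun s => ?_⟩
  · rintro ⟨-, -, -, w, -, -⟩
    exact hk0 (pow_eq_zero_iff (two_ne_zero) |>.mp w)
  · have e1 : c1 s = X - k * x s := by linear_combination hx0 s
    have e2 : d1 s = Y - k * y s := by linear_combination hy0 s
    have e3 := hkc s
    rw [e1, e2] at e3
    linear_combination e3

end

end Vale.Agent.P097
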