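import Vale.Agent.P097.LinJet2

/-!
P097.  Approximate first integrals `a(s) cos δ + b(s) sin δ`: the main theorem.
-/

namespace Vale.Agent.P097

open Complex Set
open scoped ContDiff

/-- At every boundary point `s`, and along some sequence of chords from `γ s` to `γ t` with
`t → s+`, the function `F (s, δ) = a s * cos δ + b s * sin δ` is invariant under the billiard map
up to `o((t - s)^4)`. -/
def FourthOrderLin (γ : ℝ → ℂ) (L : ℝ) (a b : ℝ → ℝ) : Prop :=
  ∀ s ε : ℝ, 0 < ε → ∀ e : ℝ, 0 < e → ∃ δ t δ' : ℝ, t < s + e ∧ Maps γ L s δ t δ' ∧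
    |(a t * Real.cos δ' + b t * Real.sin δ') - (a s * Real.cos δ + b s * Real.sin δ)|
      ≤ ε * (t - s) ^ 4

theorem Maps.len4 {γ : ℝ → ℂ} {L s δ t δ' : ℝ} (hm : Maps γ L s δ t δ') (hT : Table γ L) :
    ∃ r : ℝ, 0 < r ∧ r ≤ t - s ∧
      (deriv γ s).re * ((γ t).im - (γ s).im) - (deriv γ s).im * ((γ t).re - (γ s).re)
        = r * Real.sin δ ∧
      (deriv γ t).re * ((γ t).im - (γ s).im) - (deriv γ t).im * ((γ t).re - (γ s).re)
        = -(r * Real.sin δ') ∧
      (deriv γ s).re * ((γ t).re - (γ s).re) + (deriv γ s).im * ((γ t).im - (γ s).im)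
        = r * Real.cos δ ∧
      (deriv γ t).re * ((γ t).re - (γ s).re) + (deriv γ t).im * ((γ t).im - (γ s).im)
        = r * Real.cos δ' := by
  have us := hT.unit' s
  have ut := hT.unit' t
  obtain ⟨hst, -, -, -, -, -, r, hr, h1, h2⟩ := hm
  have hlen : r ≤ t - s := by
    have n1 : ‖γ t - γ s‖ = r := by
      rw [h1, norm_mul, norm_mul, hT.unit s, norm_exp_ofReal_mul_I, norm_real, Real.norm_eq_abs,
        abs_of_pos hr]
      ring
    have n2 := (convex_Icc s t).norm_image_sub_le_of_norm_hasDerivWithin_le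
      (f := γ) (f' := deriv γ) (C := 1)
      (fun u _ => (hT.hasDeriv u).hasDerivWithinAt) (fun u _ => (hT.unit u).le)
      (left_mem_Icc.mpr hst.le) (right_mem_Icc.mpr hst.le)
    rw [n1, Real.norm_eq_abs, abs_of_pos (by linarith), one_mul] at n2
    exact n2
  have x1 := congrArg Complex.re h1
  have y1 := congrArg Complex.im h1
  have x2 := congrArg Complex.re h2
  have y2 := congrArg Complex.im h2
  rw [← neg_mul, ← ofReal_neg] at x2 y2
  simp only [mul_re, mul_im, sub_re, sub_im, ofReal_re, ofReal_im, exp_ofReal_mul_I_re,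
    exp_ofReal_mul_I_im, zero_mul, sub_zero, add_zero, Real.cos_neg, Real.sin_neg] at x1 y1 x2 y2
  obtain ⟨c, hc⟩ : ∃ z, z = (deriv γ s).re := ⟨_, rfl⟩
  obtain ⟨d, hd⟩ : ∃ z, z = (deriv γ s).im := ⟨_, rfl⟩
  obtain ⟨c', hc'⟩ : ∃ z, z = (deriv γ t).re := ⟨_, rfl⟩
  obtain ⟨d', hd'⟩ : ∃ z, z = (deriv γ t).im := ⟨_, rfl⟩
  rw [← hc, ← hd] at x1 y1 us
  rw [← hc', ← hd'] at x2 y2 ut
  rw [← hc, ← hd, ← hc', ← hd']
  refine ⟨r, hr, hlen, ?_, ?_, ?_, ?_⟩
  · rw [x1, y1]; linear_combination (r * Real.sin δ) * us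
  · rw [x2, y2]; linear_combination (-(r * Real.sin δ')) * ut
  · rw [x1, y1]; linear_combination (r * Real.cos δ) * us
  · rw [x2, y2]; linear_combination (r * Real.cos δ') * ut

theorem linJet (γ : ℝ → ℂ) (L : ℝ) (hT : Table γ L) (hsm : ContDiff ℝ ∞ γ)
    (hκ : ∀ s, 0 < ((starRingEnd ℂ) (deriv γ s) * deriv (deriv γ) s).im)
    (a b : ℝ → ℝ) (ha : Continuous a) (hb : Continuous b) (hne : ∃ s, a s ≠ 0 ∨ b s ≠ 0)
    (hinv : FourthOrderLin γ L a b) : IsEllipse (range γ) := by
  have hC := hT.curve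
  obtain ⟨x, hx⟩ : ∃ x : ℝ → ℝ, x = fun s => (γ s).re := ⟨_, rfl⟩
  obtain ⟨y, hy⟩ : ∃ x : ℝ → ℝ, x = fun s => (γ s).im := ⟨_, rfl⟩
  obtain ⟨c, hc⟩ : ∃ x : ℝ → ℝ, x = fun s => (deriv γ s).re := ⟨_, rfl⟩
  obtain ⟨d, hd⟩ : ∃ x : ℝ → ℝ, x = fun s => (deriv γ s).im := ⟨_, rfl⟩
  rw [← hx, ← hy, ← hc, ← hd] at hC
  have hsm' : ContDiff ℝ ∞ (deriv γ) := (contDiff_infty_iff_deriv.mp hsm).2
  have sc : ContDiff ℝ ∞ c := by rw [hc]; exact Complex.reCLM.contDiff.comp hsm'
  have sd : ContDiff ℝ ∞ d := by rw [hd]; exact Complex.imCLM.contDiff.comp hsm'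
  have hκ' : ∀ s, 0 < c s * deriv d s - d s * deriv c s := by
    intro s
    have h2 : HasDerivAt (deriv γ) (deriv (deriv γ) s) s :=
      ((contDiff_infty_iff_deriv.mp hsm').1 s).hasDerivAt
    have e1 : deriv c s = (deriv (deriv γ) s).re := by
      rw [hc]; exact (Complex.reCLM.hasFDerivAt.comp_hasDerivAt s h2).deriv
    have e2 : deriv d s = (deriv (deriv γ) s).im := by
      rw [hd]; exact (Complex.imCLM.hasFDerivAt.comp_hasDerivAt s h2).deriv
    have := hκ s
    simp only [mul_im, conj_re, conj_im] at this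
    rw [e1, e2, hc, hd]
    simp only
    linarith
  have D : ∀ {f : ℝ → ℝ}, ContDiff ℝ ∞ f → ∀ t, HasDerivAt f (deriv f t) t := fun hf t =>
    ((contDiff_infty_iff_deriv.mp hf).1 t).hasDerivAt
  have S : ∀ {f : ℝ → ℝ}, ContDiff ℝ ∞ f → ContDiff ℝ ∞ (deriv f) := fun hf =>
    (contDiff_infty_iff_deriv.mp hf).2
  have hTan : Tan x y c d (deriv c) (deriv d) (deriv (deriv c)) (deriv (deriv d))
      (deriv (deriv (deriv c))) (deriv (deriv (deriv d))) :=
    ⟨hC.hx, hC.hy, D sc, D sd, D (S sc), D (S sd), D (S (S sc)), D (S (S sd)), hC.unit⟩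
  have hc3 := D (S (S (S sc)))
  have hd3 := D (S (S (S sd)))
  -- the relation along chords
  have hW : ∀ s, ApAcc (fun t => (a t * (c t * (x t - x s) + d t * (y t - y s))
        - b t * (c t * (y t - y s) - d t * (x t - x s)))
      - (a s * (c s * (x t - x s) + d s * (y t - y s))
        + b s * (c s * (y t - y s) - d s * (x t - x s)))) s 5 := by
    intro s ε hε e he
    obtain ⟨δ, t, δ', h2, hM, hF⟩ := hinv s ε hε e he
    have h1 : s < t := hM.1
    obtain ⟨r, hr, hrl, g1, g2, g3, g4⟩ := hM.len4 hT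
    refine ⟨t, h1, h2, ?_⟩
    have g1' : c s * (y t - y s) - d s * (x t - x s) = r * Real.sin δ := by
      rw [hc, hd, hx, hy]; exact g1
    have g2' : c t * (y t - y s) - d t * (x t - x s) = -(r * Real.sin δ') := by
      rw [hc, hd, hx, hy]; exact g2
    have g3' : c s * (x t - x s) + d s * (y t - y s) = r * Real.cos δ := by
      rw [hc, hd, hx, hy]; exact g3
    have g4' : c t * (x t - x s) + d t * (y t - y s) = r * Real.cos δ' := by
      rw [hc, hd, hx, hy]; exact g4
    simp only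
    rw [g1', g2', g3', g4']
    have e3 : a t * (r * Real.cos δ') - b t * -(r * Real.sin δ')
        - (a s * (r * Real.cos δ) + b s * (r * Real.sin δ))
        = r * ((a t * Real.cos δ' + b t * Real.sin δ')
          - (a s * Real.cos δ + b s * Real.sin δ)) := by ring
    rw [e3, abs_mul, abs_of_pos hr]
    have hpos : 0 < t - s := by linarith
    calc r * |(a t * Real.cos δ' + b t * Real.sin δ') - (a s * Real.cos δ + b s * Real.sin δ)|
        ≤ (t - s) * (ε * (t - s) ^ 4) := mul_le_mul hrl hF (abs_nonneg _) hpos.le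
      _ = ε * (t - s) ^ 5 := by ring
  -- the coefficient `a` is constant
  have aconst : ∀ s t, a s = a t := const_of_slopes ha (fun s r hr e he =>
    hTan.slope_a hc3 hd3 hb (hW s) r hr e he)
  by_cases ha0 : a 0 = 0
  · -- a = 0
    have haz : ∀ s, a s = 0 := fun s => (aconst s 0).trans ha0
    refine approx γ L hT hsm hκ b hb ?_ ?_
    · obtain ⟨s, hs⟩ := hne
      rcases hs with hs | hs
      · exact absurd (haz s) hs
      · exact ⟨s, hs⟩
    · intro s ε hε e he
      obtain ⟨δ, t, δ', h2, hM, hF⟩ := hinv s ε hε e he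
      refine ⟨δ, t, δ', h2, hM, ?_⟩
      rwa [haz s, haz t, zero_mul, zero_mul, zero_add, zero_add] at hF
  · -- a ≠ 0: the curvature is constant
    obtain ⟨ph, m, Y1, Y2, sph, sm, hA⟩ := exists_affine hC.hx hC.hy sc sd hκ'
    have pph := hA.pos
    obtain ⟨p, hp⟩ : ∃ p : ℝ → ℝ, p = fun s => ph s * b s := ⟨_, rfl⟩
    have sp : Continuous p := by rw [hp]; exact sph.continuous.mul hb
    have sm1 := Dd_smooth sph pph sm
    have hP4 := fun s => hTan.P4 s hc3 hd3
    have hKP : ∀ s, ApAcc (fun t =>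
        (p s * (c s / ph s * (y t - y s) - d s / ph s * (x t - x s))
          + p t * (c t / ph t * (y t - y s) - d t / ph t * (x t - x s)))
        + a 0 * ((c s - c t) * (x t - x s) + (d s - d t) * (y t - y s))) s 5 := by
      intro s ε hε e he
      obtain ⟨t, h1, h2, h3⟩ := hW s ε hε e he
      refine ⟨t, h1, h2, ?_⟩
      simp only at h3 ⊢
      rw [aconst t 0, aconst s 0] at h3
      have e1 : p s * (c s / ph s * (y t - y s) - d s / ph s * (x t - x s))
          = b s * (c s * (y t - y s) - d s * (x t - x s)) := by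
        rw [hp]
        have := (pph s).ne'
        field_simp
      have e2 : p t * (c t / ph t * (y t - y s) - d t / ph t * (x t - x s))
          = b t * (c t * (y t - y s) - d t * (x t - x s)) := by
        rw [hp]
        have := (pph t).ne'
        field_simp
      rw [e1, e2]
      rw [← abs_neg] at h3
      refine le_of_eq_of_le ?_ h3
      congr 1
      ring
    have hacc3 : ∀ s, ApAcc (fun t =>
        (p s * (c s / ph s * (y t - y s) - d s / ph s * (x t - x s))
          + p t * (c t / ph t * (y t - y s) - d t / ph t * (x t - x s)))) s 3 := by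
      intro s ε hε e he
      have hP3 : Lit (fun t => a 0 * ((c s - c t) * (x t - x s) + (d s - d t) * (y t - y s)))
        s 3 := ((hP4 s).weaken).mul (ph := fun _ => a 0) continuousAt_const
      obtain ⟨e1, he1, h1⟩ := hP3 (ε / 2) (by linarith)
      obtain ⟨t, t1, t2, t3⟩ := hKP s (ε / 2) (by linarith) (min (min e 1) e1)
        (lt_min (lt_min he one_pos) he1)
      have m0' := (min_le_left (min e 1) e1).trans (min_le_left e 1)
      have m1' := (min_le_left (min e 1) e1).trans (min_le_right e 1)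
      have m2' := min_le_right (min e 1) e1
      refine ⟨t, t1, by linarith, ?_⟩
      have f1 := h1 t t1 (by linarith)
      simp only at f1 t3 ⊢
      have hpos : 0 < t - s := by linarith
      have hle : (t - s) ^ 5 ≤ (t - s) ^ 3 :=
        pow_le_pow_of_le_one hpos.le (by linarith) (by norm_num)
      have hle2 : ε / 2 * (t - s) ^ 5 ≤ ε / 2 * (t - s) ^ 3 :=
        mul_le_mul_of_nonneg_left hle (by linarith)
      obtain ⟨K, hK⟩ : ∃ K, K = p s * (c s / ph s * (y t - y s) - d s / ph s * (x t - x s))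
          + p t * (c t / ph t * (y t - y s) - d t / ph t * (x t - x s)) := ⟨_, rfl⟩
      obtain ⟨R, hR⟩ : ∃ R, R = a 0 * ((c s - c t) * (x t - x s)
        + (d s - d t) * (y t - y s)) := ⟨_, rfl⟩
      rw [← hK, ← hR] at t3
      rw [← hR] at f1
      rw [← hK]
      have : |K| ≤ |K + R| + |R| := by
        have := abs_sub (K + R) R
        rwa [add_sub_cancel_right] at this
      linarith
    have pconst : ∀ s t, p s = p t := const_of_slopes sp (fun s r hr e he =>
      (hA.five s).slope3 ((contDiff_infty_iff_deriv.mp sph).1 s).hasDerivAt (by simp)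
        (Dd_has pph sm) (hacc3 s) r hr e he)
    have hQ : ∀ s, deriv c s * deriv (deriv c) s + deriv d s * deriv (deriv d) s = 0 := by
      intro s
      obtain ⟨Q, hQd⟩ : ∃ Q, Q = deriv c s * deriv (deriv c) s + deriv d s * deriv (deriv d) s :=
        ⟨_, rfl⟩
      rw [← hQd]
      by_contra hQ0
      have hP := hP4 s
      rw [← hQd] at hP
      have hK4 := (hA.five s).K4 sph.continuous.continuousAt (by simp) (Dd_has pph sm)
        (Dd_has pph sm1)
      have hK4' : Lit _ s 4 := hK4.mul (ph := fun _ => p s) continuousAt_const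
      have hP' : Lit _ s 4 := hP.mul (ph := fun _ => a 0) continuousAt_const
      obtain ⟨C, hCd⟩ : ∃ C, C = |a 0 * (Q / 12)| := ⟨_, rfl⟩
      have hCpos : 0 < C := by
        rw [hCd]; exact abs_pos.mpr (mul_ne_zero ha0 (div_ne_zero hQ0 (by norm_num)))
      obtain ⟨e1, he1, h1⟩ := hK4' (C / 8) (by linarith)
      obtain ⟨e2, he2, h2⟩ := hP' (C / 8) (by linarith)
      obtain ⟨t, t1, t2, t3⟩ := hKP s (C / 8) (by linarith) (min 1 (min e1 e2))
        (lt_min one_pos (lt_min he1 he2))
      have m1' := min_le_left (1 : ℝ) (min e1 e2)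
      have m2' := (min_le_right (1 : ℝ) (min e1 e2)).trans (min_le_left e1 e2)
      have m3' := (min_le_right (1 : ℝ) (min e1 e2)).trans (min_le_right e1 e2)
      have f1 := h1 t t1 (by linarith)
      have f2 := h2 t t1 (by linarith)
      simp only at f1 f2 t3
      have hpos : 0 < t - s := by linarith
      have h4 : 0 < (t - s) ^ 4 := pow_pos hpos 4
      have hle2 : C / 8 * (t - s) ^ 5 ≤ C / 8 * (t - s) ^ 4 :=
        mul_le_mul_of_nonneg_left (pow_le_pow_of_le_one hpos.le (by linarith) (by norm_num))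
          (by linarith)
      rw [pconst t s, ← mul_add] at t3
      obtain ⟨K, hK⟩ : ∃ K, K = p s * (c s / ph s * (y t - y s) - d s / ph s * (x t - x s)
          + (c t / ph t * (y t - y s) - d t / ph t * (x t - x s))) := ⟨_, rfl⟩
      obtain ⟨P, hPd⟩ : ∃ P, P = (c s - c t) * (x t - x s) + (d s - d t) * (y t - y s) :=
        ⟨_, rfl⟩
      rw [← hK, ← hPd] at t3
      rw [← hK] at f1
      rw [← hPd] at f2
      have e0 : a 0 * (Q / 12) * (t - s) ^ 4
          = (K + a 0 * P) - K - a 0 * (P - Q / 12 * (t - s) ^ 4) := by ring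
      have e1' : |a 0 * (Q / 12) * (t - s) ^ 4| ≤ |K + a 0 * P| + |K|
          + |a 0 * (P - Q / 12 * (t - s) ^ 4)| := by
        rw [e0]
        refine (abs_sub _ _).trans ?_
        have := abs_sub (K + a 0 * P) K
        linarith
      rw [abs_mul, ← hCd, abs_of_pos h4] at e1'
      have : C * (t - s) ^ 4 ≤ 3 * (C / 8 * (t - s) ^ 4) := by linarith
      have h5 : 0 < C * (t - s) ^ 4 := mul_pos hCpos h4
      linarith
    obtain ⟨q0, q1, q2, A, B, C, hq, hq2⟩ := hTan.circle hκ' hQ
    refine isEllipse_of_conic hT hq (fun s => ?_)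
    have := hq2 s
    rw [hx, hy] at this
    exact this

end Vale.Agent.P097
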