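import Vale.Agent.P097.Small
import Vale.Agent.P097.LinAlg
import Vale.Agent.P097.Conic

/-!
P097.  A near-boundary first integral that is linear in the velocity forces an ellipse.
-/

namespace Vale.Agent.P097

open Complex Set Matrix

/-- The relation between the two ends of a chord. -/
theorem Maps.rel {γ : ℝ → ℂ} {L s δ t δ' : ℝ} (hm : Maps γ L s δ t δ')
    (us : (deriv γ s).re ^ 2 + (deriv γ s).im ^ 2 = 1)
    (ut : (deriv γ t).re ^ 2 + (deriv γ t).im ^ 2 = 1) {a b : ℝ → ℝ}
    (hF : a s * Real.cos δ + b s * Real.sin δ = a t * Real.cos δ' + b t * Real.sin δ') :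
    a s * ((deriv γ s).re * ((γ t).re - (γ s).re) + (deriv γ s).im * ((γ t).im - (γ s).im))
      + b s * ((deriv γ s).re * ((γ t).im - (γ s).im) - (deriv γ s).im * ((γ t).re - (γ s).re))
      = a t * ((deriv γ t).re * ((γ t).re - (γ s).re)
        + (deriv γ t).im * ((γ t).im - (γ s).im))
      + b t * ((deriv γ t).im * ((γ t).re - (γ s).re)
        - (deriv γ t).re * ((γ t).im - (γ s).im)) := by
  obtain ⟨-, -, -, -, -, -, r, hr, h1, h2⟩ := hm
  have x1 := congrArg Complex.re h1
  have y1 := congrArg Complex.im h1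
  have x2 := congrArg Complex.re h2
  have y2 := congrArg Complex.im h2
  rw [← neg_mul, ← ofReal_neg] at x2 y2
  simp only [mul_re, mul_im, sub_re, sub_im, ofReal_re, ofReal_im, exp_ofReal_mul_I_re,
    exp_ofReal_mul_I_im, zero_mul, sub_zero, add_zero, Real.cos_neg, Real.sin_neg] at x1 y1 x2 y2
  obtain ⟨c, hc⟩ : ∃ z, z = (deriv γ s).re := ⟨_, rfl⟩
  obtain ⟨d, hd⟩ : ∃ z, z = (deriv γ s).im := ⟨_, rfl⟩
  obtain ⟨c', hc'⟩ : ∃ z, z = (deriv γ t).re := ⟨_, rfl⟩
  obtain ⟨d', hd'⟩ : ∃ z, z = (deriv γ t).im := ⟨_, rfl⟩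
  rw [← hc, ← hd] at x1 y1 us
  rw [← hc', ← hd'] at x2 y2 ut
  rw [← hc, ← hd, ← hc', ← hd']
  have k1 : c * ((γ t).re - (γ s).re) + d * ((γ t).im - (γ s).im) = r * Real.cos δ := by
    rw [x1, y1]; linear_combination (r * Real.cos δ) * us
  have k2 : c * ((γ t).im - (γ s).im) - d * ((γ t).re - (γ s).re) = r * Real.sin δ := by
    rw [x1, y1]; linear_combination (r * Real.sin δ) * us
  have k3 : c' * ((γ t).re - (γ s).re) + d' * ((γ t).im - (γ s).im) = r * Real.cos δ' := by
    rw [x2, y2]; linear_combination (r * Real.cos δ') * ut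
  have k4 : d' * ((γ t).re - (γ s).re) - c' * ((γ t).im - (γ s).im) = r * Real.sin δ' := by
    rw [x2, y2]; linear_combination (r * Real.sin δ') * ut
  rw [k1, k2, k3, k4]
  linear_combination r * hF

theorem Table.unit' {γ : ℝ → ℂ} {L : ℝ} (h : Table γ L) (s : ℝ) :
    (deriv γ s).re ^ 2 + (deriv γ s).im ^ 2 = 1 := by
  have := h.unit s
  have h2 : ‖deriv γ s‖ ^ 2 = 1 := by rw [this]; norm_num
  rw [← normSq_eq_norm_sq, normSq_apply] at h2
  linarith

theorem Table.curve {γ : ℝ → ℂ} {L : ℝ} (h : Table γ L) :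
    Curve (fun s => (γ s).re) (fun s => (γ s).im) (fun s => (deriv γ s).re)
      (fun s => (deriv γ s).im) L where
  pos := h.pos
  hx s := (Complex.reCLM.hasFDerivAt.comp_hasDerivAt s (h.hasDeriv s))
  hy s := (Complex.imCLM.hasFDerivAt.comp_hasDerivAt s (h.hasDeriv s))
  unit s := h.unit' s
  px s := by simp only [h.periodic]
  py s := by simp only [h.periodic]
  left s t h1 h2 := by
    have := h.left s t (h.simple s t h1 h2).symm
    simp only [mul_im, conj_re, conj_im, sub_re, sub_im] at this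
    linarith
  right s t h1 h2 := by
    have := h.left t s (h.simple s t h1 h2)
    simp only [mul_im, conj_re, conj_im, sub_re, sub_im] at this
    linarith

theorem exists_conic {x y c d : ℝ → ℝ} {L : ℝ} (h : Curve x y c d L) (a b : ℝ → ℝ)
    (hne : ∃ s, a s ≠ 0 ∨ b s ≠ 0) (e : ℝ) (he : 0 < e) (heL : e ≤ L)
    (hrel : ∀ s t, s < t → t < s + e →
      a s * (c s * (x t - x s) + d s * (y t - y s)) + b s * (c s * (y t - y s) - d s * (x t - x s))
      = a t * (c t * (x t - x s) + d t * (y t - y s))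
        + b t * (d t * (x t - x s) - c t * (y t - y s))) :
    ∃ q0 q1 q2 A B C : ℝ, ¬(q0 = 0 ∧ q1 = 0 ∧ q2 = 0 ∧ A = 0 ∧ B = 0 ∧ C = 0) ∧
      ∀ s, q0 + q1 * x s + q2 * y s + A * x s ^ 2 + 2 * B * (x s * y s) + C * y s ^ 2 = 0 := by
  obtain ⟨M, hM⟩ := global (fun s => ![1, x s, y s])
    (fun s => ![-((a s * c s - b s * d s) * x s + (a s * d s + b s * c s) * y s),
      a s * c s - b s * d s, a s * d s + b s * c s])
    (fun s => ![-((a s * c s + b s * d s) * x s + (a s * d s - b s * c s) * y s),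
      a s * c s + b s * d s, a s * d s - b s * c s]) e he
    (by
      intro s t h1 h2
      have := hrel s t h1 h2
      simp only [dotProduct, Fin.sum_univ_three, Matrix.cons_val_zero, Matrix.cons_val_one,
        Matrix.cons_val]
      linear_combination this)
    (by
      intro r s t h1 h2 h3
      have := h.cross_ne h1 h2 (by linarith)
      rw [Matrix.det_fin_three]
      simp only [Matrix.of_apply, Matrix.cons_val_zero, Matrix.cons_val_one, Matrix.cons_val]
      intro h0
      apply this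
      linear_combination h0)
  have E : ∀ s, -((a s * c s - b s * d s) * x s + (a s * d s + b s * c s) * y s)
        = M 0 0 + M 0 1 * x s + M 0 2 * y s ∧
      a s * c s - b s * d s = M 1 0 + M 1 1 * x s + M 1 2 * y s ∧
      a s * d s + b s * c s = M 2 0 + M 2 1 * x s + M 2 2 * y s ∧
      a s * c s + b s * d s = -(M 0 1 + M 1 1 * x s + M 2 1 * y s) ∧
      a s * d s - b s * c s = -(M 0 2 + M 1 2 * x s + M 2 2 * y s) := by
    intro s
    obtain ⟨k1, k2⟩ := hM s
    have a0 := congrFun k1 0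
    have a1 := congrFun k1 1
    have a2 := congrFun k1 2
    have b1 := congrFun k2 1
    have b2 := congrFun k2 2
    simp only [Matrix.mulVec, dotProduct, Fin.sum_univ_three, Matrix.cons_val_zero,
      Matrix.cons_val_one, Matrix.cons_val, Pi.neg_apply, Matrix.transpose_apply, mul_one]
      at a0 a1 a2 b1 b2
    exact ⟨a0, a1, a2, b1, b2⟩
  have hun := h.unit
  by_cases hz : M 0 0 = 0 ∧ M 0 1 + M 1 0 = 0 ∧ M 0 2 + M 2 0 = 0 ∧ M 1 1 = 0 ∧
      (M 1 2 + M 2 1) / 2 = 0 ∧ M 2 2 = 0
  swap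
  · refine ⟨_, _, _, _, _, _, hz, fun s => ?_⟩
    obtain ⟨e0, e1, e2, -, -⟩ := E s
    linear_combination (-1) * e0 - x s * e1 - y s * e2
  · obtain ⟨z0, z1, z2, z3, z4, z5⟩ := hz
    have hb : ∀ s, b s = 0 := by
      intro s
      obtain ⟨-, e1, e2, e3, e4⟩ := E s
      have g1 : b s * d s = 0 := by
        linear_combination (-1 / 2) * (e1 - e3) - (1 / 2) * z1 - x s * z3 - y s * z4
      have g2 : b s * c s = 0 := by
        linear_combination (1 / 2) * (e2 - e4) + (1 / 2) * z2 + y s * z5 + x s * z4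
      linear_combination (-b s) * hun s + c s * g2 + d s * g1
    have hac : ∀ s, a s * c s = M 1 0 + M 1 2 * y s := by
      intro s
      obtain ⟨-, e1, -, -, -⟩ := E s
      rw [hb s, z3] at e1
      linear_combination e1
    have had : ∀ s, a s * d s = M 2 0 - M 1 2 * x s := by
      intro s
      obtain ⟨-, -, e2, -, -⟩ := E s
      rw [hb s, z5] at e2
      linear_combination e2 + 2 * x s * z4
    rcases eq_or_ne (M 1 2) 0 with hk | hk
    · -- a line
      have hconst : ∀ s, M 1 0 * y s - M 2 0 * x s = M 1 0 * y 0 - M 2 0 * x 0 := by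
        have hder : ∀ s, HasDerivAt (fun s => M 1 0 * y s - M 2 0 * x s) 0 s := by
          intro s
          have k := ((h.hy s).const_mul (M 1 0)).sub ((h.hx s).const_mul (M 2 0))
          have h1 := hac s
          have h2 := had s
          rw [hk] at h1 h2
          exact k.congr_deriv (by linear_combination (-d s) * h1 + c s * h2)
        intro s
        exact is_const_of_deriv_eq_zero (fun s => (hder s).differentiableAt)
          (fun s => (hder s).deriv) s 0
      refine ⟨-(M 1 0 * y 0 - M 2 0 * x 0), -M 2 0, M 1 0, 0, 0, 0, ?_, fun s => ?_⟩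
      · rintro ⟨-, w1, w2, -, -, -⟩
        obtain ⟨s, hs⟩ := hne
        have h1 := hac s
        have h2 := had s
        rw [hk] at h1 h2
        have : a s = 0 := by
          linear_combination (-a s) * hun s + c s * h1 + d s * h2 + c s * w2 - d s * w1
        rcases hs with hs | hs
        · exact hs this
        · exact hs (hb s)
      · linear_combination hconst s
    · -- a circle
      have hconst : ∀ s, (M 1 2 * x s - M 2 0) ^ 2 + (M 1 2 * y s + M 1 0) ^ 2
          = (M 1 2 * x 0 - M 2 0) ^ 2 + (M 1 2 * y 0 + M 1 0) ^ 2 := by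
        have hder : ∀ s, HasDerivAt (fun s => (M 1 2 * x s - M 2 0) ^ 2
            + (M 1 2 * y s + M 1 0) ^ 2) 0 s := by
          intro s
          have k := ((((h.hx s).const_mul (M 1 2)).sub_const (M 2 0)).pow 2).add
            ((((h.hy s).const_mul (M 1 2)).add_const (M 1 0)).pow 2)
          have h1 := hac s
          have h2 := had s
          refine k.congr_deriv ?_
          norm_num
          linear_combination (-2 * M 1 2 * d s) * h1 + 2 * M 1 2 * c s * h2
        intro s
        exact is_const_of_deriv_eq_zero (fun s => (hder s).differentiableAt)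
          (fun s => (hder s).deriv) s 0
      refine ⟨M 2 0 ^ 2 + M 1 0 ^ 2 - ((M 1 2 * x 0 - M 2 0) ^ 2 + (M 1 2 * y 0 + M 1 0) ^ 2),
        -2 * M 1 2 * M 2 0, 2 * M 1 2 * M 1 0, M 1 2 ^ 2, 0, M 1 2 ^ 2, ?_, fun s => ?_⟩
      · rintro ⟨-, -, -, w, -, -⟩
        exact hk (pow_eq_zero_iff (two_ne_zero) |>.mp w)
      · linear_combination hconst s

theorem main (γ : ℝ → ℂ) (L : ℝ) (hT : Table γ L) (a b : ℝ → ℝ)
    (hne : ∃ s, a s ≠ 0 ∨ b s ≠ 0) (η : ℝ) (hη : 0 < η)
    (hinv : ∀ s δ t δ', Maps γ L s δ t δ' → δ < η → δ' < η →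
      a s * Real.cos δ + b s * Real.sin δ = a t * Real.cos δ' + b t * Real.sin δ') :
    IsEllipse (range γ) := by
  obtain ⟨e, he, heL, hsh⟩ := hT.short η hη
  have hC := hT.curve
  obtain ⟨q0, q1, q2, A, B, C, hq, hq2⟩ := exists_conic hC a b hne e he heL (by
    intro s t h1 h2
    obtain ⟨δ, δ', hd, hd', hm⟩ := hsh s t h1 h2
    exact hm.rel (hT.unit' s) (hT.unit' t) (hinv s δ t δ' hm hd hd'))
  obtain ⟨x0, y0, A', B', C', h1, h2, h3⟩ := hC.conic q0 q1 q2 A B C hq hq2
  refine ⟨⟨x0, y0⟩, A', B', C', h1, h2, ?_⟩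
  ext z
  rw [mem_range]
  have := h3 z.re z.im
  constructor
  · rintro ⟨s, rfl⟩
    exact this.mpr ⟨s, rfl, rfl⟩
  · intro hz
    obtain ⟨s, k1, k2⟩ := this.mp hz
    exact ⟨s, Complex.ext k1 k2⟩

end Vale.Agent.P097
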