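import Vale.Agent.P097.Chord
import Vale.Agent.P097.Frame
import Vale.Agent.P097.Conv

/-!
P097.  A sequence of invariant curves with one profile forces an ellipse.
-/

namespace Vale.Agent.P097

open Complex Set
open scoped ContDiff

theorem isEllipse_of_conic {γ : ℝ → ℂ} {L : ℝ} (hT : Table γ L) {q0 q1 q2 A B C : ℝ}
    (hq : ¬(q0 = 0 ∧ q1 = 0 ∧ q2 = 0 ∧ A = 0 ∧ B = 0 ∧ C = 0))
    (hq2 : ∀ s, q0 + q1 * (γ s).re + q2 * (γ s).im + A * (γ s).re ^ 2
      + 2 * B * ((γ s).re * (γ s).im) + C * (γ s).im ^ 2 = 0) : IsEllipse (range γ) := by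
  obtain ⟨x0, y0, A', B', C', h1, h2, h3⟩ := hT.curve.conic q0 q1 q2 A B C hq hq2
  refine ⟨⟨x0, y0⟩, A', B', C', h1, h2, ?_⟩
  ext z
  rw [mem_range]
  have := h3 z.re z.im
  constructor
  · rintro ⟨s, rfl⟩
    exact this.mpr ⟨s, rfl, rfl⟩
  · intro hz
    obtain ⟨s, k1, k2⟩ := this.mp hz
    exact ⟨s, Complex.ext k1 k2⟩

theorem profile (γ : ℝ → ℂ) (L : ℝ) (hT : Table γ L) (hsm : ContDiff ℝ ∞ γ)
    (hκ : ∀ s, 0 < ((starRingEnd ℂ) (deriv γ s) * deriv (deriv γ) s).im)
    (f : ℝ → ℝ) (hf : ContDiff ℝ ∞ f) (hfpos : ∀ s, 0 < f s)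
    (hinv : ∀ ε, 0 < ε → ∃ c, 0 < c ∧ c < ε ∧ ∀ s δ t δ', Maps γ L s δ t δ' →
      δ < Real.pi / 2 → Real.sin δ = c * f s → Real.sin δ' = c * f t) :
    IsEllipse (range γ) := by
  have hC := hT.curve
  obtain ⟨x, hx⟩ : ∃ x : ℝ → ℝ, x = fun s => (γ s).re := ⟨_, rfl⟩
  obtain ⟨y, hy⟩ : ∃ x : ℝ → ℝ, x = fun s => (γ s).im := ⟨_, rfl⟩
  obtain ⟨c, hc⟩ : ∃ x : ℝ → ℝ, x = fun s => (deriv γ s).re := ⟨_, rfl⟩
  obtain ⟨d, hd⟩ : ∃ x : ℝ → ℝ, x = fun s => (deriv γ s).im := ⟨_, rfl⟩
  rw [← hx, ← hy, ← hc, ← hd] at hC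
  have hsm' : ContDiff ℝ ∞ (deriv γ) := (contDiff_infty_iff_deriv.mp hsm).2
  have sc : ContDiff ℝ ∞ c := by rw [hc]; exact Complex.reCLM.contDiff.comp hsm'
  have sd : ContDiff ℝ ∞ d := by rw [hd]; exact Complex.imCLM.contDiff.comp hsm'
  have hκ' : ∀ s, 0 < c s * deriv d s - d s * deriv c s := by
    intro s
    have h2 : HasDerivAt (deriv γ) (deriv (deriv γ) s) s :=
      ((contDiff_infty_iff_deriv.mp hsm').1 s).hasDerivAt
    have e1 : deriv c s = (deriv (deriv γ) s).re := by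
      rw [hc]; exact (Complex.reCLM.hasFDerivAt.comp_hasDerivAt s h2).deriv
    have e2 : deriv d s = (deriv (deriv γ) s).im := by
      rw [hd]; exact (Complex.imCLM.hasFDerivAt.comp_hasDerivAt s h2).deriv
    have := hκ s
    simp only [mul_im, conj_re, conj_im] at this
    rw [e1, e2, hc, hd]
    simp only
    linarith
  obtain ⟨ph, m, Y1, Y2, sph, sm, hA⟩ := exists_affine hC.hx hC.hy sc sd hκ'
  have pph := hA.pos
  -- the coefficient p
  obtain ⟨p, hp⟩ : ∃ p : ℝ → ℝ, p = fun s => ph s / f s := ⟨_, rfl⟩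
  have sp : ContDiff ℝ ∞ p := by rw [hp]; exact sph.div hf (fun s => (hfpos s).ne')
  have ppos : ∀ s, 0 < p s := by
    intro s; rw [hp]; exact div_pos (pph s) (hfpos s)
  have sp1 := Dd_smooth sph pph sp
  have sp2 := Dd_smooth sph pph sp1
  have sp3 := Dd_smooth sph pph sp2
  have sm1 := Dd_smooth sph pph sm
  have sm2 := Dd_smooth sph pph sm1
  have sm3 := Dd_smooth sph pph sm2
  -- accumulation of zeros
  have hacc : ∀ s, Acc (fun t => p s * (c s / ph s * (y t - y s) - d s / ph s * (x t - x s))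
      + p t * (c t / ph t * (y t - y s) - d t / ph t * (x t - x s))) s := by
    intro s e he
    obtain ⟨δ0, hδ0, hch⟩ := hT.chord s e he
    obtain ⟨δ1, hδ1⟩ : ∃ z, z = min δ0 (Real.pi / 4) := ⟨_, rfl⟩
    have hpi := Real.pi_pos
    have k0 : 0 < δ1 := by rw [hδ1]; exact lt_min hδ0 (by linarith)
    have k1 : δ1 ≤ δ0 := by rw [hδ1]; exact min_le_left _ _
    have k2 : δ1 ≤ Real.pi / 4 := by rw [hδ1]; exact min_le_right _ _
    have hsin : 0 < Real.sin δ1 := Real.sin_pos_of_pos_of_lt_pi k0 (by linarith)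
    obtain ⟨cc, hc0, hc1, hcc⟩ := hinv (Real.sin δ1 / f s) (div_pos hsin (hfpos s))
    have hlt : cc * f s < Real.sin δ1 := (lt_div_iff₀ (hfpos s)).mp hc1
    have hpos : 0 < cc * f s := mul_pos hc0 (hfpos s)
    have hle1 : Real.sin δ1 ≤ 1 := Real.sin_le_one _
    have a1 : 0 < Real.arcsin (cc * f s) := Real.arcsin_pos.mpr hpos
    have a2 : Real.arcsin (cc * f s) < δ1 := by
      have : Real.arcsin (cc * f s) < Real.arcsin (Real.sin δ1) :=
        Real.arcsin_lt_arcsin (by linarith) hlt hle1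
      rwa [Real.arcsin_sin (by linarith) (by linarith)] at this
    obtain ⟨t, δ', h1, h2, hM⟩ := hch _ a1 (lt_of_lt_of_le a2 k1)
    have hs1 : Real.sin (Real.arcsin (cc * f s)) = cc * f s :=
      Real.sin_arcsin (by linarith) (by linarith)
    have hs2 := hcc s _ t δ' hM (by linarith) hs1
    obtain ⟨r, hr, g1, g2⟩ := hM.sines (hT.unit' s) (hT.unit' t)
    refine ⟨t, h1, h2, ?_⟩
    rw [hs1] at g1
    rw [hs2] at g2
    have g1' : c s * (y t - y s) - d s * (x t - x s) = r * (cc * f s) := by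
      rw [hc, hd, hx, hy]; exact g1
    have g2' : c t * (y t - y s) - d t * (x t - x s) = -(r * (cc * f t)) := by
      rw [hc, hd, hx, hy]; exact g2
    have e1 : p s * (c s / ph s * (y t - y s) - d s / ph s * (x t - x s))
        = (c s * (y t - y s) - d s * (x t - x s)) / f s := by
      rw [hp]
      have := (pph s).ne'
      have := (hfpos s).ne'
      field_simp
    have e2 : p t * (c t / ph t * (y t - y s) - d t / ph t * (x t - x s))
        = (c t * (y t - y s) - d t * (x t - x s)) / f t := by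
      rw [hp]
      have := (pph t).ne'
      have := (hfpos t).ne'
      field_simp
    simp only
    rw [e1, e2, g1', g2']
    have := (hfpos s).ne'
    have := (hfpos t).ne'
    field_simp
    ring
  -- stage 1
  have st1 : ∀ s, Dd ph p s = 0 := by
    intro s
    exact (hA.five s).stage1 (Dd_has pph sm) (Dd_has pph sp) (Dd_has pph sp1) (Dd_has pph sp2)
      sm1.continuous sp3.continuous (hacc s)
  have pconst : ∀ s t, p s = p t := by
    intro s t
    have hder : ∀ s, HasDerivAt p 0 s := by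
      intro s
      have := Dd_has pph sp s
      rw [st1 s, mul_zero] at this
      exact this
    exact is_const_of_deriv_eq_zero (fun s => (hder s).differentiableAt)
      (fun s => (hder s).deriv) s t
  -- stage 2
  have st2 : ∀ s, Dd ph m s = 0 := by
    intro s
    refine (hA.five s).stage2 (Dd_has pph sm) (Dd_has pph sm1) (Dd_has pph sm2)
      sm3.continuous ?_
    intro e he
    obtain ⟨t, h1, h2, h3⟩ := hacc s e he
    refine ⟨t, h1, h2, ?_⟩
    simp only at h3 ⊢
    rw [pconst t s, ← mul_add] at h3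
    exact (mul_eq_zero.mp h3).resolve_left (ppos s).ne'
  have mconst : ∀ t, m t = m 0 := by
    intro t
    have hder : ∀ s, HasDerivAt m 0 s := by
      intro s
      have := Dd_has pph sm s
      rw [st2 s, mul_zero] at this
      exact this
    exact is_const_of_deriv_eq_zero (fun s => (hder s).differentiableAt)
      (fun s => (hder s).deriv) t 0
  obtain ⟨q0, q1, q2, A, B, C, hq, hq2⟩ := hA.conic (m 0) mconst
  refine isEllipse_of_conic hT hq (fun s => ?_)
  have := hq2 s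
  rw [hx, hy] at this
  exact this

end Vale.Agent.P097
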