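import Vale.Agent.P097.Defs

/-!
P097.  Short chords make small angles: they belong to the near-boundary part of the phase space.
-/

namespace Vale.Agent.P097

open Complex Set

theorem Table.cont {γ : ℝ → ℂ} {L : ℝ} (h : Table γ L) : Continuous (deriv γ) :=
  h.smooth.continuous_deriv le_rfl

theorem Table.hasDeriv {γ : ℝ → ℂ} {L : ℝ} (h : Table γ L) (s : ℝ) :
    HasDerivAt γ (deriv γ s) s :=
  (h.smooth.differentiable (by norm_num)).differentiableAt.hasDerivAt

theorem Table.deriv_per {γ : ℝ → ℂ} {L : ℝ} (h : Table γ L) :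
    Function.Periodic (deriv γ) L := by
  intro s
  have h1 : (fun t => γ (t + L)) = γ := funext h.periodic
  have h2 : deriv (fun t => γ (t + L)) s = deriv γ (s + L) := by
    rw [deriv_comp_add_const]
  rw [← h2, h1]

theorem Table.unif {γ : ℝ → ℂ} {L : ℝ} (h : Table γ L) (ρ : ℝ) (hρ : 0 < ρ) :
    ∃ e, 0 < e ∧ ∀ s u, |u - s| < e → ‖deriv γ u - deriv γ s‖ ≤ ρ := by
  have hL := h.pos
  have huc := (isCompact_Icc (a := -L) (b := 2 * L)).uniformContinuousOn_of_continuous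
    h.cont.continuousOn
  obtain ⟨e, he, hunif⟩ := Metric.uniformContinuousOn_iff.mp huc ρ hρ
  refine ⟨min e L, lt_min he hL, fun s u hsu => ?_⟩
  have h1 : |u - s| < e := lt_of_lt_of_le hsu (min_le_left _ _)
  have h2 : |u - s| < L := lt_of_lt_of_le hsu (min_le_right _ _)
  have h3 := abs_lt.mp h2
  have f1 : 0 ≤ s - ⌊s / L⌋ * L := Int.sub_floor_div_mul_nonneg s hL
  have f2 : s - ⌊s / L⌋ * L < L := Int.sub_floor_div_mul_lt s hL
  have p1 : deriv γ (s - ⌊s / L⌋ * L) = deriv γ s := by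
    have := h.deriv_per.sub_zsmul_eq (x := s) ⌊s / L⌋
    rwa [zsmul_eq_mul] at this
  have p2 : deriv γ (u - ⌊s / L⌋ * L) = deriv γ u := by
    have := h.deriv_per.sub_zsmul_eq (x := u) ⌊s / L⌋
    rwa [zsmul_eq_mul] at this
  have := hunif (u - ⌊s / L⌋ * L) ⟨by linarith, by linarith⟩ (s - ⌊s / L⌋ * L)
    ⟨by linarith, by linarith⟩ (by
      rw [Real.dist_eq]
      have : u - ⌊s / L⌋ * L - (s - ⌊s / L⌋ * L) = u - s := by ring
      rw [this]; exact h1)
  rw [p1, p2, dist_eq_norm] at this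
  exact this.le

theorem Table.mvt {γ : ℝ → ℂ} {L : ℝ} (h : Table γ L) {ρ : ℝ} {s t p : ℝ} (hst : s ≤ t)
    (hb : ∀ u, s ≤ u → u ≤ t → ‖deriv γ u - deriv γ p‖ ≤ ρ) :
    ‖γ t - γ s - ((t - s : ℝ) : ℂ) * deriv γ p‖ ≤ ρ * (t - s) := by
  have hd : ∀ u ∈ Icc s t, HasDerivWithinAt (fun u : ℝ => γ u - (u : ℂ) * deriv γ p)
      (deriv γ u - deriv γ p) (Icc s t) u := by
    intro u _
    have h1 : HasDerivAt (fun u : ℝ => (u : ℂ) * deriv γ p) (deriv γ p) u := by
      have := (Complex.ofRealCLM.hasDerivAt (x := u)).mul_const (deriv γ p)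
      simpa using this
    exact ((h.hasDeriv u).sub h1).hasDerivWithinAt
  have := (convex_Icc s t).norm_image_sub_le_of_norm_hasDerivWithin_le hd
    (fun u hu => hb u hu.1 hu.2) (left_mem_Icc.mpr hst) (right_mem_Icc.mpr hst)
  rw [Real.norm_eq_abs, abs_of_nonneg (by linarith : 0 ≤ t - s)] at this
  have e : γ t - (t : ℂ) * deriv γ p - (γ s - (s : ℂ) * deriv γ p)
      = γ t - γ s - ((t - s : ℝ) : ℂ) * deriv γ p := by
    push_cast; ring
  rw [← e]
  exact this

theorem arg_small (η : ℝ) (hη : 0 < η) :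
    ∃ ρ, 0 < ρ ∧ ∀ w : ℂ, ‖w - 1‖ ≤ ρ → arg w < η := by
  have hc : ContinuousAt arg (1 : ℂ) := continuousAt_arg (by simp)
  obtain ⟨r, hr, hh⟩ := Metric.continuousAt_iff.mp hc η hη
  refine ⟨r / 2, by linarith, fun w hw => ?_⟩
  have := hh (x := w) (by rw [dist_eq_norm]; linarith)
  rw [arg_one, Real.dist_eq, sub_zero] at this
  exact (abs_lt.mp this).2

theorem arg_pos_lt {z : ℂ} (hz : 0 < z.im) : 0 < arg z ∧ arg z < Real.pi := by
  have h1 : 0 ≤ arg z := arg_nonneg_iff.mpr hz.le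
  have h2 : arg z ≠ 0 := by
    intro h0
    have := arg_eq_zero_iff.mp h0
    exact hz.ne' this.2
  have h3 : arg z < Real.pi := by
    rw [arg_lt_pi_iff]
    exact Or.inr hz.ne'
  exact ⟨lt_of_le_of_ne h1 (Ne.symm h2), h3⟩

theorem unit_mul {u : ℂ} (hu : ‖u‖ = 1) : u * (starRingEnd ℂ) u = 1 := by
  rw [mul_conj, normSq_eq_norm_sq, hu]; simp

/-- Short chords. -/
theorem Table.short {γ : ℝ → ℂ} {L : ℝ} (h : Table γ L) (η : ℝ) (hη : 0 < η) :
    ∃ e, 0 < e ∧ e ≤ L ∧ ∀ s t, s < t → t < s + e →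
      ∃ δ δ', δ < η ∧ δ' < η ∧ Maps γ L s δ t δ' := by
  obtain ⟨ρ, hρ, harg⟩ := arg_small η hη
  obtain ⟨e, he, hunif⟩ := h.unif ρ hρ
  refine ⟨min e L, lt_min he h.pos, min_le_right _ _, fun s t hst hte => ?_⟩
  have hte1 : t < s + e := lt_of_lt_of_le hte (by linarith [min_le_left e L])
  have hte2 : t < s + L := lt_of_lt_of_le hte (by linarith [min_le_right e L])
  have hpos : 0 < t - s := by linarith
  have hposC : ((t - s : ℝ) : ℂ) ≠ 0 := by
    exact_mod_cast hpos.ne'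
  have hne : γ s ≠ γ t := h.simple s t hst hte2
  have m1 := h.mvt (p := s) hst.le (fun u h1 h2 => hunif s u (by
    rw [abs_of_nonneg (by linarith)]; linarith))
  have m2 := h.mvt (p := t) hst.le (fun u h1 h2 => hunif t u (by
    rw [abs_of_nonpos (by linarith)]; linarith))
  -- first angle
  obtain ⟨D, hD⟩ : ∃ D, D = γ t - γ s := ⟨_, rfl⟩
  have i1 : 0 < ((starRingEnd ℂ) (deriv γ s) * D).im := by
    rw [hD]; exact h.left s t hne.symm
  have i2 : 0 < (deriv γ t * (starRingEnd ℂ) D).im := by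
    have := h.left t s hne
    have e1 : (deriv γ t * (starRingEnd ℂ) D).im
        = ((starRingEnd ℂ) (deriv γ t) * (γ s - γ t)).im := by
      rw [hD]
      simp only [mul_im, conj_re, conj_im, sub_re, sub_im]
      ring
    rw [e1]; exact this
  rw [← hD] at m1 m2
  have us := unit_mul (h.unit s)
  have ut := unit_mul (h.unit t)
  have a1 : arg ((starRingEnd ℂ) (deriv γ s) * D) < η := by
    have e1 : (starRingEnd ℂ) (deriv γ s) * D
        = ((t - s : ℝ) : ℂ) * ((starRingEnd ℂ) (deriv γ s) * D / ((t - s : ℝ) : ℂ)) := by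
      field_simp
    rw [e1, arg_real_mul _ hpos]
    apply harg
    have e2 : (starRingEnd ℂ) (deriv γ s) * D / ((t - s : ℝ) : ℂ) - 1
        = (starRingEnd ℂ) (deriv γ s) * (D - ((t - s : ℝ) : ℂ) * deriv γ s)
          / ((t - s : ℝ) : ℂ) := by
      field_simp
      linear_combination (((t - s : ℝ) : ℂ)) * us
    rw [e2, norm_div, norm_mul, norm_conj, h.unit s, one_mul, norm_real, Real.norm_eq_abs,
      abs_of_pos hpos, div_le_iff₀ hpos]
    exact m1
  have a2 : arg (deriv γ t * (starRingEnd ℂ) D) < η := by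
    have e1 : deriv γ t * (starRingEnd ℂ) D
        = ((t - s : ℝ) : ℂ) * (deriv γ t * (starRingEnd ℂ) D / ((t - s : ℝ) : ℂ)) := by
      field_simp
    rw [e1, arg_real_mul _ hpos]
    apply harg
    have e2 : deriv γ t * (starRingEnd ℂ) D / ((t - s : ℝ) : ℂ) - 1
        = deriv γ t * (starRingEnd ℂ) (D - ((t - s : ℝ) : ℂ) * deriv γ t)
          / ((t - s : ℝ) : ℂ) := by
      rw [map_sub, map_mul, conj_ofReal]
      field_simp
      linear_combination (((t - s : ℝ) : ℂ)) * ut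
    rw [e2, norm_div, norm_mul, norm_conj, h.unit t, one_mul, norm_real, Real.norm_eq_abs,
      abs_of_pos hpos, div_le_iff₀ hpos]
    exact m2
  refine ⟨arg ((starRingEnd ℂ) (deriv γ s) * D), arg (deriv γ t * (starRingEnd ℂ) D), a1, a2,
    hst, hte2, (arg_pos_lt i1).1, (arg_pos_lt i1).2, (arg_pos_lt i2).1, (arg_pos_lt i2).2,
    ‖D‖, ?_, ?_, ?_⟩
  · rw [norm_pos_iff, hD]
    exact sub_ne_zero.mpr hne.symm
  · have k := norm_mul_exp_arg_mul_I ((starRingEnd ℂ) (deriv γ s) * D)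
    rw [norm_mul, norm_conj, h.unit s, one_mul] at k
    rw [k, ← hD]
    linear_combination (-D) * us
  · have k := norm_mul_exp_arg_mul_I (deriv γ t * (starRingEnd ℂ) D)
    rw [norm_mul, norm_conj, h.unit t, one_mul] at k
    have k2 := congrArg (starRingEnd ℂ) k
    rw [map_mul, map_mul, conj_ofReal, conj_conj, ← exp_conj, map_mul, conj_ofReal, conj_I,
      mul_neg] at k2
    rw [k2, ← hD]
    linear_combination (-D) * ut

end Vale.Agent.P097
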